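import Vale.Agent.P076.R2.H64.Defs

/-!
# P076, thin sets of times: the cells
-/

open MeasureTheory Complex FourierTransform Filter Topology Set
open scoped ENNReal NNReal

namespace Vale.Agent.P076.R2.H64

/-- the interval `[l / 4 ^ k, (l + 1) / 4 ^ k]` of the pair `(k, l)` -/
def cell (p : ℕ × ℕ) : Set ℝ := Icc ((p.2 : ℝ) / 4 ^ p.1) (((p.2 : ℝ) + 1) / 4 ^ p.1)

/-- the times `t ≥ 0` outside the cells of `S` -/
def good (S : Set (ℕ × ℕ)) : Set ℝ := Ici 0 \ ⋃ p ∈ S, cell p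

end Vale.Agent.P076.R2.H64
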