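import Vale.Agent.P076.R2.H64.Defs

/-!
# P076, thin sets of times: measurable majorants on the intervals of a shell
-/

open MeasureTheory Complex FourierTransform Filter Topology Set
open scoped ENNReal NNReal

namespace Vale.Agent.P076.R2.H64

open Vale.Agent.P076 Vale.Agent.P076.H791 Vale.Agent.P076.R2.H831

variable {n : ℕ} {R : ℝ} {G : E n → ℂ}

/-- Kato smoothing -/
def SpecK (n : ℕ) : Prop := ∃ C : ℝ≥0∞, C ≠ ⊤ ∧ ∀ (R : ℝ) (G : E n → ℂ), 0 < R → Shell R G →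
    ∫⁻ x : E n, ENNReal.ofReal (Real.exp (-‖x‖ ^ 2)) * ∫⁻ s : ℝ, ‖evo G x s 0‖ₑ ^ 2 ≤
      C * (ENNReal.ofReal R)⁻¹ * ∫⁻ η, ‖G η‖ₑ ^ 2

/-- Sobolev in time -/
def SpecS (n : ℕ) : Prop := ∀ (R : ℝ) (G : E n → ℂ), Shell R G → ∀ (x : E n) (b h : ℝ), 0 < h →
    ∀ s ∈ Icc b (b + h),
    ‖evo G x s 0‖ₑ ^ 2 ≤ 2 * (ENNReal.ofReal h)⁻¹ * (∫⁻ σ in Icc b (b + h), ‖evo G x σ 0‖ₑ ^ 2) +
      2 * ENNReal.ofReal h * ∫⁻ σ in Icc b (b + h), ‖evo (dG G) x σ 0‖ₑ ^ 2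

/-- regularisation -/
def SpecA (n : ℕ) : Prop := ∀ (R : ℝ) (G : E n → ℂ), 0 < R → Shell R G → ∀ (x : E n) (s a : ℝ),
    0 ≤ a → ‖evo G x s a‖ₑ ≤ ∫⁻ a' in Ioi (0 : ℝ), ‖evo (Ga a' G) x s 0‖ₑ

lemma Shell.memLp (h : Shell R G) : MemLp G 2 volume := by
  refine ⟨h.meas.aestronglyMeasurable, ?_⟩
  rw [eLpNorm_lt_top_iff_lintegral_rpow_enorm_lt_top (by norm_num) (by norm_num)]
  simp only [ENNReal.toReal_ofNat, ENNReal.rpow_ofNat]
  exact lt_top_iff_ne_top.2 h.l2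

lemma Shell.integrable (h : Shell R G) : Integrable G := by
  have h1 : IntegrableOn G (Metric.closedBall 0 (2 * R)) volume := by
    have : IsFiniteMeasure (volume.restrict (Metric.closedBall (0 : E n) (2 * R))) :=
      ⟨by rw [Measure.restrict_apply_univ]; exact measure_closedBall_lt_top⟩
    exact (h.memLp.restrict _).integrable one_le_two
  refine (integrableOn_iff_integrable_of_support_subset fun η hη => ?_).1 h1
  rw [mem_closedBall_zero_iff]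
  exact (h.supp η hη).2

lemma norm_Ga_le (hR : 0 ≤ R) (h : Shell R G) {a : ℝ} (ha : 0 ≤ a) (η : E n) :
    ‖Ga a G η‖ₑ ^ 2 ≤ ENNReal.ofReal (16 * R ^ 4 * Real.exp (-(2 * a * R ^ 2))) * ‖G η‖ₑ ^ 2 := by
  by_cases h0 : G η = 0
  · simp [Ga, h0]
  obtain ⟨h1, h2⟩ := h.supp η h0
  have e1 : ‖Ga a G η‖ₑ = ENNReal.ofReal (‖η‖ ^ 2 * Real.exp (-(a * ‖η‖ ^ 2))) * ‖G η‖ₑ := by
    rw [Ga, enorm_mul]
    congr 1
    rw [← ofReal_norm, Complex.norm_real, Real.norm_eq_abs, abs_of_nonneg (by positivity)]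
  have h3 : ‖η‖ ^ 2 * Real.exp (-(a * ‖η‖ ^ 2)) ≤ 4 * R ^ 2 * Real.exp (-(a * R ^ 2)) := by
    have h4 : ‖η‖ ^ 2 ≤ 4 * R ^ 2 := by nlinarith [norm_nonneg η]
    have h5 : R ^ 2 ≤ ‖η‖ ^ 2 := pow_le_pow_left₀ hR h1 2
    have h6 : Real.exp (-(a * ‖η‖ ^ 2)) ≤ Real.exp (-(a * R ^ 2)) :=
      Real.exp_le_exp.2 (by nlinarith)
    exact mul_le_mul h4 h6 (Real.exp_pos _).le (by positivity)
  rw [e1, mul_pow]
  gcongr
  rw [← ENNReal.ofReal_pow (by positivity)]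
  refine ENNReal.ofReal_le_ofReal ?_
  refine (pow_le_pow_left₀ (by positivity) h3 2).trans (le_of_eq ?_)
  rw [mul_pow, ← Real.exp_nat_mul]
  push_cast
  have : (2 : ℝ) * -(a * R ^ 2) = -(2 * a * R ^ 2) := by ring
  rw [this]
  ring

lemma norm_dG_le (hR : 0 ≤ R) (h : Shell R G) (η : E n) :
    ‖dG G η‖ₑ ^ 2 ≤ ENNReal.ofReal ((8 * Real.pi * R ^ 2) ^ 2) * ‖G η‖ₑ ^ 2 := by
  by_cases h0 : G η = 0
  · simp [dG, h0]
  obtain ⟨h1, h2⟩ := h.supp η h0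
  have e1 : ‖dG G η‖ₑ = ENNReal.ofReal (2 * Real.pi * ‖η‖ ^ 2) * ‖G η‖ₑ := by
    rw [dG, enorm_mul]
    congr 1
    rw [← ofReal_norm]
    congr 1
    rw [norm_neg, norm_mul, norm_mul, norm_mul, Complex.norm_I, norm_pow, Complex.norm_real,
      Complex.norm_real]
    simp [abs_of_pos Real.pi_pos]
  rw [e1, mul_pow]
  gcongr
  rw [← ENNReal.ofReal_pow (by positivity)]
  refine ENNReal.ofReal_le_ofReal (pow_le_pow_left₀ (by positivity) ?_ 2)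
  nlinarith [norm_nonneg η, Real.pi_pos, mul_le_mul h2 h2 (norm_nonneg η) (by positivity)]

lemma shell_of_le {H : E n → ℂ} (h : Shell R G) (hH : Measurable H) {c : ℝ≥0∞} (hc : c ≠ ⊤)
    (h1 : ∀ η, ‖H η‖ₑ ^ 2 ≤ c * ‖G η‖ₑ ^ 2) (h2 : ∀ η, G η = 0 → H η = 0) : Shell R H where
  meas := hH
  l2 := by
    have h3 : ∫⁻ η, ‖H η‖ₑ ^ 2 ≤ c * ∫⁻ η, ‖G η‖ₑ ^ 2 := by
      rw [← lintegral_const_mul' _ _ hc]
      exact lintegral_mono h1
    exact ne_top_of_le_ne_top (ENNReal.mul_ne_top hc h.l2) h3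
  supp := fun η hη => h.supp η fun h0 => hη (h2 η h0)

lemma shell_Ga (hR : 0 ≤ R) (h : Shell R G) {a : ℝ} (ha : 0 ≤ a) : Shell R (Ga a G) :=
  shell_of_le h (by
    have := h.meas
    unfold Ga
    fun_prop) ENNReal.ofReal_ne_top (norm_Ga_le hR h ha) fun η h0 => by simp [Ga, h0]

lemma shell_dG (hR : 0 ≤ R) (h : Shell R G) : Shell R (dG G) :=
  shell_of_le h (by
    have := h.meas
    unfold dG
    fun_prop) ENNReal.ofReal_ne_top (norm_dG_le hR h) fun η h0 => by simp [dG, h0]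

lemma lint_Ga (hR : 0 ≤ R) (h : Shell R G) {a : ℝ} (ha : 0 ≤ a) :
    ∫⁻ η, ‖Ga a G η‖ₑ ^ 2 ≤
      ENNReal.ofReal (16 * R ^ 4 * Real.exp (-(2 * a * R ^ 2))) * ∫⁻ η, ‖G η‖ₑ ^ 2 := by
  rw [← lintegral_const_mul' _ _ ENNReal.ofReal_ne_top]
  exact lintegral_mono (norm_Ga_le hR h ha)

lemma lint_dG (hR : 0 ≤ R) (h : Shell R G) :
    ∫⁻ η, ‖dG G η‖ₑ ^ 2 ≤ ENNReal.ofReal ((8 * Real.pi * R ^ 2) ^ 2) * ∫⁻ η, ‖G η‖ₑ ^ 2 := by
  rw [← lintegral_const_mul' _ _ ENNReal.ofReal_ne_top]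
  exact lintegral_mono (norm_dG_le hR h)

/-- Plancherel for shells -/
lemma lint_evo (h : Shell R G) (s : ℝ) : ∫⁻ x, ‖evo G x s 0‖ₑ ^ 2 = ∫⁻ η, ‖G η‖ₑ ^ 2 := by
  have hs : Shell R (sft s G) :=
    shell_of_le h (measurable_sft h.meas s) (c := 1) (by norm_num) (fun η => by
      rw [one_mul, ← ofReal_norm, ← ofReal_norm, norm_sft]) fun η h0 => by simp [sft, h0]
  have h1 := lintegral_evo_zero hs.integrable hs.memLp
  simp_rw [evo_sft, zero_add] at h1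
  rw [h1]
  refine lintegral_congr fun η => ?_
  rw [← ofReal_norm, ← ofReal_norm, norm_sft]

/-- joint measurability -/
lemma measurable_evo_Ga (h : Measurable G) :
    Measurable fun p : (E n × ℝ) × ℝ => evo (Ga p.1.2 G) p.1.1 p.2 0 := by
  have m1 : Measurable fun q : ((E n × ℝ) × ℝ) × E n =>
      ph q.1.1.1 q.1.2 0 q.2 * Ga q.1.1.2 G q.2 := by
    unfold ph Ga
    fun_prop
  exact (m1.stronglyMeasurable.integral_prod_right).measurable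

lemma measurable_evo_dGa (h : Measurable G) :
    Measurable fun p : (E n × ℝ) × ℝ => evo (dG (Ga p.1.2 G)) p.1.1 p.2 0 := by
  have m1 : Measurable fun q : ((E n × ℝ) × ℝ) × E n =>
      ph q.1.1.1 q.1.2 0 q.2 * dG (Ga q.1.1.2 G) q.2 := by
    unfold ph dG Ga
    fun_prop
  exact (m1.stronglyMeasurable.integral_prod_right).measurable

end Vale.Agent.P076.R2.H64
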