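import Vale.Agent.P076.R2.H64.Core

/-!
# P076, thin sets of times: the majorants
-/

open MeasureTheory Complex FourierTransform Filter Topology Set
open scoped ENNReal NNReal

namespace Vale.Agent.P076.R2.H64

open Vale.Agent.P076 Vale.Agent.P076.H791 Vale.Agent.P076.R2.H831

variable {n : ℕ} {R : ℝ} {G : E n → ℂ}

/-- the interval of times -/
def Il (R : ℝ) (l : ℕ) : Set ℝ := Icc (l * hh R) (l * hh R + hh R)

/-- the weight in the regularisation parameter -/
noncomputable def ua (R a : ℝ) : ℝ≥0∞ := ENNReal.ofReal ((R ^ 2)⁻¹ * Real.exp (a * R ^ 2))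

/-- the quadratic bound for one interval -/
noncomputable def QI (R : ℝ) (G : E n → ℂ) (l : ℕ) (x : E n) (a : ℝ) : ℝ≥0∞ :=
  2 * (ENNReal.ofReal (hh R))⁻¹ * (∫⁻ σ in Il R l, ‖evo (Ga a G) x σ 0‖ₑ ^ 2) +
      2 * ENNReal.ofReal (hh R) * ∫⁻ σ in Il R l, ‖evo (dG (Ga a G)) x σ 0‖ₑ ^ 2

/-- the majorant -/
noncomputable def MM (R : ℝ) (G : E n → ℂ) (l : ℕ) (x : E n) : ℝ≥0∞ :=
  ∫⁻ a in Ioi (0 : ℝ), ua R a * QI R G l x a

lemma hh_pos (hR : 0 < R) : 0 < hh R := by unfold hh; positivity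

lemma measurable_ua (R : ℝ) : Measurable (ua R) := by unfold ua; fun_prop

lemma measurable_QI (h : Measurable G) (R : ℝ) (l : ℕ) :
    Measurable fun p : E n × ℝ => QI R G l p.1 p.2 := by
  have m1 : Measurable fun p : E n × ℝ => ∫⁻ σ in Il R l, ‖evo (Ga p.2 G) p.1 σ 0‖ₑ ^ 2 :=
    ((measurable_evo_Ga h).enorm.pow_const 2).lintegral_prod_right'
  have m2 : Measurable fun p : E n × ℝ => ∫⁻ σ in Il R l, ‖evo (dG (Ga p.2 G)) p.1 σ 0‖ₑ ^ 2 :=
    ((measurable_evo_dGa h).enorm.pow_const 2).lintegral_prod_right'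
  exact (m1.const_mul _).add (m2.const_mul _)

lemma measurable_MM (h : Measurable G) (R : ℝ) (l : ℕ) : Measurable (MM R G l) := by
  have m1 : Measurable fun p : E n × ℝ => ua R p.2 * QI R G l p.1 p.2 :=
    ((measurable_ua R).comp measurable_snd).mul (measurable_QI h R l)
  exact m1.lintegral_prod_right'

lemma ua_ne_zero (hR : 0 < R) (a : ℝ) : ua R a ≠ 0 := by
  unfold ua
  simp only [ne_eq, ENNReal.ofReal_eq_zero, not_le]
  positivity

lemma exp_lint {b : ℝ} (hb : 0 < b) {c : ℝ} (hc : 0 ≤ c) :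
    ∫⁻ a in Ioi (0 : ℝ), ENNReal.ofReal (c * b * Real.exp (-(a * b))) = ENNReal.ofReal c := by
  have h1 : IntegrableOn (fun a : ℝ => c * b * Real.exp (-(a * b))) (Ioi 0) := by
    have := (integrableOn_exp_mul_Ioi (a := -b) (by linarith) 0).const_mul (c * b)
    refine this.congr (Eventually.of_forall fun a => ?_)
    simp only
    congr 2
    ring
  rw [← ofReal_integral_eq_lintegral_ofReal h1 (Eventually.of_forall fun a => by positivity)]
  congr 1
  have h2 : ∫ a in Ioi (0 : ℝ), c * b * Real.exp (-(a * b)) =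
      c * b * ∫ a in Ioi (0 : ℝ), Real.exp (-b * a) := by
    rw [← integral_const_mul]
    refine integral_congr_ae (Eventually.of_forall fun a => ?_)
    simp only
    congr 2
    ring
  rw [h2, integral_exp_mul_Ioi (by linarith)]
  simp only [mul_zero, Real.exp_zero]
  field_simp

lemma ua_inv (hR : 0 < R) : ∫⁻ a in Ioi (0 : ℝ), (ua R a)⁻¹ = 1 := by
  have h1 : ∀ a, (ua R a)⁻¹ = ENNReal.ofReal (1 * R ^ 2 * Real.exp (-(a * R ^ 2))) := by
    intro a
    unfold ua
    rw [← ENNReal.ofReal_inv_of_pos (by positivity)]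
    congr 1
    rw [mul_inv, inv_inv, Real.exp_neg, one_mul]
  simp_rw [h1]
  rw [exp_lint (by positivity) zero_le_one, ENNReal.ofReal_one]

/-- the majorant -/
lemma MM_ge (hS : SpecS n) (hA : SpecA n) (hR : 0 < R) (h : Shell R G) (l : ℕ) (x : E n) {s : ℝ}
    (hs : s ∈ Il R l) {a : ℝ} (ha : 0 ≤ a) : ‖evo G x s a‖ₑ ^ 2 ≤ MM R G l x := by
  have h1 := hA R G hR h x s a ha
  have mf : Measurable fun a' : ℝ => ‖evo (Ga a' G) x s 0‖ₑ := by
    have := (measurable_evo_Ga h.meas).comp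
      (f := fun a' : ℝ => (((x, a') : E n × ℝ), s)) (by fun_prop)
    exact this.enorm
  have h2 := cs_weight (μ := volume.restrict (Ioi (0 : ℝ))) mf.aemeasurable
    (measurable_ua R).aemeasurable (Eventually.of_forall (ua_ne_zero hR))
    (Eventually.of_forall fun a h => absurd h ENNReal.ofReal_ne_top)
  rw [ua_inv hR, one_mul] at h2
  refine (pow_le_pow_left' h1 2).trans (h2.trans ?_)
  refine setLIntegral_mono' measurableSet_Ioi fun a' ha' => ?_
  gcongr
  exact hS R _ (shell_Ga hR.le h (le_of_lt ha')) x _ _ (hh_pos hR) s hs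

end Vale.Agent.P076.R2.H64
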