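import Vale.Agent.P076.R2.H64.Core2

/-!
# P076, thin sets of times: the integrals of the majorants
-/

open MeasureTheory Complex FourierTransform Filter Topology Set
open scoped ENNReal NNReal

namespace Vale.Agent.P076.R2.H64

open Vale.Agent.P076 Vale.Agent.P076.H791 Vale.Agent.P076.R2.H831

variable {n : ℕ} {R : ℝ} {G : E n → ℂ}

lemma volume_Il (R : ℝ) (l : ℕ) : volume (Il R l) = ENNReal.ofReal (hh R) := by
  rw [Il, Real.volume_Icc]
  congr 1
  ring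

/-- the constant -/
noncomputable def c1 : ℝ := 2 + 512 * Real.pi ^ 4

/-- the constant -/
noncomputable def c2 : ℝ := 1 / Real.pi + 256 * Real.pi ^ 3

lemma lint_QI (hR : 0 < R) (h : Shell R G) (l : ℕ) {a : ℝ} (ha : 0 ≤ a) :
    ∫⁻ x : E n, QI R G l x a ≤ ENNReal.ofReal c1 * ∫⁻ η, ‖Ga a G η‖ₑ ^ 2 := by
  have hGa := shell_Ga hR.le h ha
  have hdG := shell_dG hR.le hGa
  have key : ∀ H : E n → ℂ, Shell R H → ∫⁻ x : E n, ∫⁻ σ in Il R l, ‖evo H x σ 0‖ₑ ^ 2 =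
      ENNReal.ofReal (hh R) * ∫⁻ η, ‖H η‖ₑ ^ 2 := by
    intro H hH
    rw [lintegral_lintegral_swap]
    · simp_rw [lint_evo hH]
      rw [lintegral_const, Measure.restrict_apply_univ, volume_Il, mul_comm]
    · exact (((continuous_evo hH.integrable).measurable).enorm.pow_const 2).aemeasurable
  have hm : Measurable fun x : E n => ∫⁻ σ in Il R l, ‖evo (Ga a G) x σ 0‖ₑ ^ 2 :=
    (((continuous_evo hGa.integrable).measurable).enorm.pow_const 2).lintegral_prod_right'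
  have hm2 : Measurable fun x : E n => ∫⁻ σ in Il R l, ‖evo (dG (Ga a G)) x σ 0‖ₑ ^ 2 :=
    (((continuous_evo hdG.integrable).measurable).enorm.pow_const 2).lintegral_prod_right'
  have hh0 := hh_pos hR
  unfold QI
  rw [lintegral_add_left (hm.const_mul _), lintegral_const_mul _ hm, lintegral_const_mul _ hm2,
    key _ hGa, key _ hdG]
  have h1 := lint_dG hR.le hGa
  have hh1 : hh R ^ 2 * (8 * Real.pi * R ^ 2) ^ 2 = 256 * Real.pi ^ 4 := by
    unfold hh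
    field_simp
    ring
  calc 2 * (ENNReal.ofReal (hh R))⁻¹ * (ENNReal.ofReal (hh R) * ∫⁻ η, ‖Ga a G η‖ₑ ^ 2) +
        2 * ENNReal.ofReal (hh R) * (ENNReal.ofReal (hh R) * ∫⁻ η, ‖dG (Ga a G) η‖ₑ ^ 2)
      ≤ 2 * (ENNReal.ofReal (hh R))⁻¹ * (ENNReal.ofReal (hh R) * ∫⁻ η, ‖Ga a G η‖ₑ ^ 2) +
        2 * ENNReal.ofReal (hh R) * (ENNReal.ofReal (hh R) *
          (ENNReal.ofReal ((8 * Real.pi * R ^ 2) ^ 2) * ∫⁻ η, ‖Ga a G η‖ₑ ^ 2)) := by
        gcongr
    _ = (2 * ((ENNReal.ofReal (hh R))⁻¹ * ENNReal.ofReal (hh R)) +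
        2 * (ENNReal.ofReal (hh R) * ENNReal.ofReal (hh R) *
          ENNReal.ofReal ((8 * Real.pi * R ^ 2) ^ 2))) * ∫⁻ η, ‖Ga a G η‖ₑ ^ 2 := by ring
    _ = ENNReal.ofReal c1 * ∫⁻ η, ‖Ga a G η‖ₑ ^ 2 := by
        congr 1
        rw [ENNReal.inv_mul_cancel (by simpa using hh0) ENNReal.ofReal_ne_top,
          ← ENNReal.ofReal_mul hh0.le, ← ENNReal.ofReal_mul (by positivity), ← sq, hh1, c1,
          ENNReal.ofReal_add (by norm_num) (by positivity), mul_one]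
        congr 1
        · norm_num
        · have : (512 : ℝ) * Real.pi ^ 4 = 2 * (256 * Real.pi ^ 4) := by ring
          rw [this, ENNReal.ofReal_mul (by norm_num : (0:ℝ) ≤ 2)]
          norm_num

/-- the integral over the regularisation parameter -/
lemma lint_ua (hR : 0 < R) (h : Shell R G) {F : ℝ → ℝ≥0∞} {c : ℝ} (hc : 0 ≤ c)
    (hF : ∀ a, 0 < a → F a ≤ ENNReal.ofReal c * ∫⁻ η, ‖Ga a G η‖ₑ ^ 2) :
    ∫⁻ a in Ioi (0 : ℝ), ua R a * F a ≤ ENNReal.ofReal (16 * c) * ∫⁻ η, ‖G η‖ₑ ^ 2 := by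
  calc ∫⁻ a in Ioi (0 : ℝ), ua R a * F a
      ≤ ∫⁻ a in Ioi (0 : ℝ), ENNReal.ofReal (16 * c * R ^ 2 * Real.exp (-(a * R ^ 2))) *
        ∫⁻ η, ‖G η‖ₑ ^ 2 := by
        refine setLIntegral_mono' measurableSet_Ioi fun a ha => ?_
        have ha : 0 < a := ha
        have h1 := (hF a ha).trans (mul_le_mul_right (lint_Ga hR.le h ha.le) (ENNReal.ofReal c))
        refine (mul_le_mul_right h1 (ua R a)).trans (le_of_eq ?_)
        rw [← mul_assoc, ← mul_assoc]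
        congr 1
        unfold ua
        rw [← ENNReal.ofReal_mul (by positivity), ← ENNReal.ofReal_mul (by positivity)]
        congr 1
        have e1 : Real.exp (-(2 * a * R ^ 2)) =
            Real.exp (-(a * R ^ 2)) * (Real.exp (a * R ^ 2))⁻¹ := by
          rw [← Real.exp_neg, ← Real.exp_add]
          congr 1
          ring
        rw [e1]
        have := (Real.exp_pos (a * R ^ 2)).ne'
        field_simp
    _ = ENNReal.ofReal (16 * c) * ∫⁻ η, ‖G η‖ₑ ^ 2 := by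
        rw [lintegral_mul_const' _ _ h.l2, exp_lint (by positivity) (by positivity)]

lemma MM_int (hR : 0 < R) (h : Shell R G) (l : ℕ) :
    ∫⁻ x : E n, MM R G l x ≤ ENNReal.ofReal (16 * c1) * ∫⁻ η, ‖G η‖ₑ ^ 2 := by
  unfold MM
  rw [lintegral_lintegral_swap]
  · have e1 : ∀ a : ℝ, ∫⁻ x : E n, ua R a * QI R G l x a = ua R a * ∫⁻ x : E n, QI R G l x a :=
      fun a => lintegral_const_mul' _ _ ENNReal.ofReal_ne_top
    simp_rw [e1]
    exact lint_ua hR h (by unfold c1; positivity) fun a ha => lint_QI hR h l ha.le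
  · have m1 : Measurable fun p : E n × ℝ => ua R p.2 * QI R G l p.1 p.2 :=
      ((measurable_ua R).comp measurable_snd).mul (measurable_QI h.meas R l)
    exact m1.aemeasurable

lemma tsum_Il (f : ℝ → ℝ≥0∞) (hR : 0 < R) :
    ∑' l, ∫⁻ σ in Il R l, f σ ≤ ∫⁻ σ, f σ := by
  have hh0 := hh_pos hR
  have e1 : ∀ l, ∫⁻ σ in Il R l, f σ = ∫⁻ σ in Ioc (l * hh R) (l * hh R + hh R), f σ :=
    fun l => setLIntegral_congr Ioc_ae_eq_Icc.symm
  simp_rw [e1]
  rw [← lintegral_iUnion (fun l => measurableSet_Ioc)]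
  · exact setLIntegral_le_lintegral _ _
  · intro i j hij
    rw [Function.onFun, Set.disjoint_left]
    rintro x ⟨h1, h2⟩ ⟨h3, h4⟩
    rcases lt_or_gt_of_ne hij with h | h
    · have : ((i : ℝ) + 1) ≤ j := by exact_mod_cast h
      nlinarith
    · have : ((j : ℝ) + 1) ≤ i := by exact_mod_cast h
      nlinarith

lemma tsum_QI (hR : 0 < R) (h : Shell R G) (x : E n) {a : ℝ} (ha : 0 ≤ a) :
    ∑' l, QI R G l x a ≤ 2 * (ENNReal.ofReal (hh R))⁻¹ * (∫⁻ σ, ‖evo (Ga a G) x σ 0‖ₑ ^ 2) +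
      2 * ENNReal.ofReal (hh R) * ∫⁻ σ, ‖evo (dG (Ga a G)) x σ 0‖ₑ ^ 2 := by
  have hGa := shell_Ga hR.le h ha
  have hdG := shell_dG hR.le hGa
  unfold QI
  rw [ENNReal.tsum_add, ENNReal.tsum_mul_left, ENNReal.tsum_mul_left]
  gcongr
  · exact tsum_Il _ hR
  · exact tsum_Il _ hR

end Vale.Agent.P076.R2.H64
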