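import Vale.Agent.P076.R2.H64.Core3

/-!
# P076, thin sets of times: the sum of the majorants over the intervals
-/

open MeasureTheory Complex FourierTransform Filter Topology Set
open scoped ENNReal NNReal

namespace Vale.Agent.P076.R2.H64

open Vale.Agent.P076 Vale.Agent.P076.H791 Vale.Agent.P076.R2.H831

variable {n : ℕ} {R : ℝ} {G : E n → ℂ}

/-- the weight in space -/
noncomputable def WW (x : E n) : ℝ≥0∞ := ENNReal.ofReal (Real.exp (-‖x‖ ^ 2))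

lemma measurable_WW : Measurable (WW (n := n)) := by unfold WW; fun_prop

lemma WW_ne_top (x : E n) : WW x ≠ ⊤ := ENNReal.ofReal_ne_top

lemma ua_ne_top (R a : ℝ) : ua R a ≠ ⊤ := ENNReal.ofReal_ne_top

lemma lint_sum_QI {C : ℝ≥0∞} (hK : ∀ (R : ℝ) (G : E n → ℂ), 0 < R → Shell R G →
      ∫⁻ x : E n, WW x * ∫⁻ s : ℝ, ‖evo G x s 0‖ₑ ^ 2 ≤
        C * (ENNReal.ofReal R)⁻¹ * ∫⁻ η, ‖G η‖ₑ ^ 2)
    (hR : 0 < R) (h : Shell R G) {a : ℝ} (ha : 0 ≤ a) :
    ∫⁻ x : E n, WW x * ∑' l, QI R G l x a ≤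
      C * ENNReal.ofReal (c2 * R) * ∫⁻ η, ‖Ga a G η‖ₑ ^ 2 := by
  have hGa := shell_Ga hR.le h ha
  have hdG := shell_dG hR.le hGa
  have hh0 := hh_pos hR
  have m : ∀ H : E n → ℂ, Shell R H → Measurable fun x : E n => ∫⁻ σ : ℝ, ‖evo H x σ 0‖ₑ ^ 2 :=
    fun H hH => (((continuous_evo hH.integrable).measurable).enorm.pow_const 2).lintegral_prod_right'
  have h1 := hK R _ hR hGa
  have h2 := hK R _ hR hdG
  have h3 := lint_dG hR.le hGa
  calc ∫⁻ x : E n, WW x * ∑' l, QI R G l x a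
      ≤ ∫⁻ x : E n, (2 * (ENNReal.ofReal (hh R))⁻¹ * (WW x * ∫⁻ σ, ‖evo (Ga a G) x σ 0‖ₑ ^ 2) +
        2 * ENNReal.ofReal (hh R) * (WW x * ∫⁻ σ, ‖evo (dG (Ga a G)) x σ 0‖ₑ ^ 2)) := by
        refine lintegral_mono fun x => ?_
        refine (mul_le_mul_right (tsum_QI hR h x ha) (WW x)).trans (le_of_eq ?_)
        ring
    _ = 2 * (ENNReal.ofReal (hh R))⁻¹ * (∫⁻ x : E n, WW x * ∫⁻ σ, ‖evo (Ga a G) x σ 0‖ₑ ^ 2) +
        2 * ENNReal.ofReal (hh R) * ∫⁻ x : E n, WW x * ∫⁻ σ, ‖evo (dG (Ga a G)) x σ 0‖ₑ ^ 2 := by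
        have m1 : Measurable fun x : E n => WW x * ∫⁻ σ : ℝ, ‖evo (Ga a G) x σ 0‖ₑ ^ 2 :=
          measurable_WW.mul (m _ hGa)
        have m2 : Measurable fun x : E n => WW x * ∫⁻ σ : ℝ, ‖evo (dG (Ga a G)) x σ 0‖ₑ ^ 2 :=
          measurable_WW.mul (m _ hdG)
        rw [lintegral_add_left (m1.const_mul _), lintegral_const_mul _ m1,
          lintegral_const_mul _ m2]
    _ ≤ 2 * (ENNReal.ofReal (hh R))⁻¹ * (C * (ENNReal.ofReal R)⁻¹ * ∫⁻ η, ‖Ga a G η‖ₑ ^ 2) +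
        2 * ENNReal.ofReal (hh R) * (C * (ENNReal.ofReal R)⁻¹ *
          (ENNReal.ofReal ((8 * Real.pi * R ^ 2) ^ 2) * ∫⁻ η, ‖Ga a G η‖ₑ ^ 2)) := by
        gcongr
        exact h2.trans (by gcongr)
    _ = C * (2 * ((ENNReal.ofReal (hh R))⁻¹ * (ENNReal.ofReal R)⁻¹) +
        2 * (ENNReal.ofReal (hh R) * ((ENNReal.ofReal R)⁻¹ *
          ENNReal.ofReal ((8 * Real.pi * R ^ 2) ^ 2)))) * ∫⁻ η, ‖Ga a G η‖ₑ ^ 2 := by ring
    _ = C * ENNReal.ofReal (c2 * R) * ∫⁻ η, ‖Ga a G η‖ₑ ^ 2 := by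
        congr 2
        have e1 : (ENNReal.ofReal (hh R))⁻¹ * (ENNReal.ofReal R)⁻¹ =
            ENNReal.ofReal ((hh R)⁻¹ * R⁻¹) := by
          rw [ENNReal.ofReal_mul (by positivity), ENNReal.ofReal_inv_of_pos hh0,
            ENNReal.ofReal_inv_of_pos hR]
        have e2 : ENNReal.ofReal (hh R) * ((ENNReal.ofReal R)⁻¹ *
            ENNReal.ofReal ((8 * Real.pi * R ^ 2) ^ 2)) =
            ENNReal.ofReal (hh R * (R⁻¹ * (8 * Real.pi * R ^ 2) ^ 2)) := by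
          rw [ENNReal.ofReal_mul (by positivity), ENNReal.ofReal_mul (by positivity),
            ENNReal.ofReal_inv_of_pos hR]
        have e3 : (2 : ℝ≥0∞) = ENNReal.ofReal 2 := by norm_num
        rw [e1, e2, e3, ← ENNReal.ofReal_mul (by norm_num), ← ENNReal.ofReal_mul (by norm_num),
          ← ENNReal.ofReal_add (by positivity) (by positivity)]
        congr 1
        unfold hh c2
        have := Real.pi_pos
        field_simp
        ring

lemma MM_sum {C : ℝ≥0∞} (hC : C ≠ ⊤) (hK : ∀ (R : ℝ) (G : E n → ℂ), 0 < R → Shell R G →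
      ∫⁻ x : E n, WW x * ∫⁻ s : ℝ, ‖evo G x s 0‖ₑ ^ 2 ≤
        C * (ENNReal.ofReal R)⁻¹ * ∫⁻ η, ‖G η‖ₑ ^ 2)
    (hR : 0 < R) (h : Shell R G) :
    ∫⁻ x : E n, WW x * ∑' l, MM R G l x ≤
      ENNReal.ofReal (16 * (C.toReal * (c2 * R))) * ∫⁻ η, ‖G η‖ₑ ^ 2 := by
  have hc2 : 0 ≤ c2 := by unfold c2; positivity
  have mQ : ∀ l, Measurable fun p : E n × ℝ => ua R p.2 * QI R G l p.1 p.2 := fun l =>
    ((measurable_ua R).comp measurable_snd).mul (measurable_QI h.meas R l)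
  have e1 : ∀ x : E n, WW x * ∑' l, MM R G l x =
      ∫⁻ a in Ioi (0 : ℝ), WW x * (ua R a * ∑' l, QI R G l x a) := by
    intro x
    rw [lintegral_const_mul' _ _ (WW_ne_top x)]
    congr 1
    unfold MM
    have mx : ∀ l, AEMeasurable (fun a : ℝ => ua R a * QI R G l x a)
        (volume.restrict (Ioi (0 : ℝ))) := fun l =>
      ((mQ l).comp (measurable_const.prodMk measurable_id : Measurable fun a : ℝ =>
        (x, a))).aemeasurable
    rw [← lintegral_tsum mx]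
    refine lintegral_congr fun a => ?_
    rw [← ENNReal.tsum_mul_left]
  simp_rw [e1]
  rw [lintegral_lintegral_swap]
  · have e2 : ∀ a : ℝ, ∫⁻ x : E n, WW x * (ua R a * ∑' l, QI R G l x a) =
        ua R a * ∫⁻ x : E n, WW x * ∑' l, QI R G l x a := by
      intro a
      rw [← lintegral_const_mul' _ _ (ua_ne_top R a)]
      refine lintegral_congr fun x => ?_
      ring
    simp_rw [e2]
    refine lint_ua hR h (by positivity) fun a ha => ?_
    refine (lint_sum_QI hK hR h ha.le).trans (le_of_eq ?_)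
    rw [ENNReal.ofReal_mul ENNReal.toReal_nonneg, ENNReal.ofReal_toReal hC]
  · have m1 : Measurable fun p : E n × ℝ => WW p.1 * (ua R p.2 * ∑' l, QI R G l p.1 p.2) :=
      (measurable_WW.comp measurable_fst).mul (((measurable_ua R).comp measurable_snd).mul
        (Measurable.tsum fun l => measurable_QI h.meas R l))
    exact m1.aemeasurable

/-- **The majorants of a shell.** -/
theorem core (hK : SpecK n) (hS : SpecS n) (hA : SpecA n) : ∃ C : ℝ, 0 ≤ C ∧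
    ∀ (R : ℝ) (G : E n → ℂ), 0 < R → Shell R G → ∃ M : ℕ → E n → ℝ≥0∞, (∀ l, Measurable (M l)) ∧
      (∀ l x, ∀ s ∈ Il R l, ∀ a : ℝ, 0 ≤ a → ‖evo G x s a‖ₑ ^ 2 ≤ M l x) ∧
      (∀ l, ∫⁻ x, M l x ≤ ENNReal.ofReal C * ∫⁻ η, ‖G η‖ₑ ^ 2) ∧
      ∫⁻ x, WW x * ∑' l, M l x ≤ ENNReal.ofReal (C * R) * ∫⁻ η, ‖G η‖ₑ ^ 2 := by
  obtain ⟨C, hC, hK⟩ := hK
  have hc1 : 0 ≤ c1 := by unfold c1; positivity
  have hc2 : 0 ≤ c2 := by unfold c2; positivity
  refine ⟨16 * c1 + 16 * (C.toReal * c2), by positivity, fun R G hR h => ⟨MM R G, fun l =>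
    measurable_MM h.meas R l, fun l x s hs a ha => MM_ge hS hA hR h l x hs ha, fun l => ?_, ?_⟩⟩
  · refine (MM_int hR h l).trans ?_
    have : 0 ≤ C.toReal * c2 := by positivity
    exact mul_le_mul_left (ENNReal.ofReal_le_ofReal (by linarith)) _
  · refine (MM_sum hC hK hR h).trans ?_
    exact mul_le_mul_left (ENNReal.ofReal_le_ofReal (by nlinarith [mul_nonneg hc1 hR.le])) _

end Vale.Agent.P076.R2.H64
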