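import Vale.Agent.P076.R2.H831.Uni

/-!
# P076, thin sets of times: frequency shells
-/

open MeasureTheory Complex FourierTransform Filter Topology Set
open scoped ENNReal NNReal

namespace Vale.Agent.P076.R2.H64

open Vale.Agent.P076 Vale.Agent.P076.H791

variable {n : ℕ}

/-- frequency data in the shell `R ≤ ‖η‖ ≤ 2R` -/
structure Shell (R : ℝ) (G : E n → ℂ) : Prop where
  meas : Measurable G
  l2 : ∫⁻ η, ‖G η‖ₑ ^ 2 ≠ ⊤
  supp : ∀ η, G η ≠ 0 → R ≤ ‖η‖ ∧ ‖η‖ ≤ 2 * R

/-- frequency data of the derivative in the time -/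
noncomputable def dG (G : E n → ℂ) (η : E n) : ℂ := -(2 * Real.pi * I * ‖η‖ ^ 2) * G η

/-- frequency data of the derivative in the regularisation parameter -/
noncomputable def Ga (a : ℝ) (G : E n → ℂ) (η : E n) : ℂ :=
  ((‖η‖ ^ 2 * Real.exp (-(a * ‖η‖ ^ 2)) : ℝ) : ℂ) * G η

/-- the length of the intervals of the shell -/
noncomputable def hh (R : ℝ) : ℝ := 2 * Real.pi / R ^ 2

end Vale.Agent.P076.R2.H64
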