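import Vale.Agent.P076.R2.H64.Core4
import Vale.Agent.P076.R2.H657.Kato
import Vale.Agent.P076.R2.H408.SupA
import Vale.Agent.P076.R2.H770.Sob

/-!
# P076, thin sets of times: the rows
-/

open MeasureTheory Complex FourierTransform Filter Topology Set
open scoped ENNReal NNReal

namespace Vale.Agent.P076.R2.H64

open Vale.Agent.P076 Vale.Agent.P076.H791

variable {n : ℕ}

theorem specK (hn : 1 ≤ n) : SpecK n := H657.kato hn

theorem specS (n : ℕ) : SpecS n := fun _ _ hG x _ _ h0 _ hs => sob hG x h0 hs

theorem specA (n : ℕ) : SpecA n := fun _ _ hR hG x s _ ha => sup_a hR hG x s ha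

end Vale.Agent.P076.R2.H64
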