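import Vale.Agent.P076.R2.H64.Rows

/-!
# P076, thin sets of times: the dyadic pieces
-/

open MeasureTheory Complex FourierTransform Filter Topology Set
open scoped ENNReal NNReal

namespace Vale.Agent.P076.R2.H64

open Vale.Agent.P076 Vale.Agent.P076.H791

variable {n : ℕ} {G : E n → ℂ}

/-- the dyadic shell -/
def An (n k : ℕ) : Set (E n) := {η | (2 : ℝ) ^ k ≤ ‖η‖ ∧ ‖η‖ < 2 ^ (k + 1)}

lemma measurableSet_An (k : ℕ) : MeasurableSet (An n k) :=
  (measurableSet_le measurable_const measurable_norm).inter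
    (measurableSet_lt measurable_norm measurable_const)

/-- the dyadic pieces -/
noncomputable def pc (G : E n → ℂ) : ℕ → E n → ℂ
  | 0 => indicator (Metric.ball 0 1) G
  | k + 1 => indicator (An n k) G

lemma norm_pc_le (G : E n → ℂ) (k : ℕ) (η : E n) : ‖pc G k η‖ₑ ≤ ‖G η‖ₑ := by
  cases k with
  | zero => exact enorm_indicator_le_enorm_self _ _
  | succ k => exact enorm_indicator_le_enorm_self _ _

lemma measurable_pc (hG : Measurable G) (k : ℕ) : Measurable (pc G k) := by
  cases k with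
  | zero => exact hG.indicator measurableSet_ball
  | succ k => exact hG.indicator (measurableSet_An k)

lemma supp_pc (G : E n → ℂ) (k : ℕ) (η : E n) (h : pc G k η ≠ 0) : ‖η‖ ≤ 2 ^ k := by
  cases k with
  | zero =>
    have h1 := mem_of_indicator_ne_zero h
    rw [mem_ball_zero_iff] at h1
    simpa using h1.le
  | succ k => exact (mem_of_indicator_ne_zero h).2.le

lemma shell_pc (hG : Measurable G) (h2 : ∫⁻ η, ‖G η‖ₑ ^ 2 ≠ ⊤) (k : ℕ) :
    Shell ((2 : ℝ) ^ k) (pc G (k + 1)) where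
  meas := measurable_pc hG _
  l2 := ne_top_of_le_ne_top h2 (lintegral_mono fun η => pow_le_pow_left' (norm_pc_le G _ η) 2)
  supp := fun η hη => by
    have h1 : η ∈ An n k := mem_of_indicator_ne_zero hη
    refine ⟨h1.1, h1.2.le.trans (le_of_eq (by ring))⟩

lemma disjoint_An : Pairwise (Function.onFun Disjoint (An n)) := by
  have key : ∀ i j : ℕ, i < j → Disjoint (An n i) (An n j) := by
    intro i j hij
    rw [Set.disjoint_left]
    intro η h1 h2
    have h3 : (2 : ℝ) ^ (i + 1) ≤ 2 ^ j := pow_le_pow_right₀ (by norm_num) hij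
    linarith [h1.2, h2.1]
  intro i j hij
  rcases lt_or_gt_of_ne hij with h | h
  · exact key i j h
  · exact (key j i h).symm

lemma hasSum_pc (G : E n → ℂ) (η : E n) : HasSum (fun k => pc G k η) (G η) := by
  by_cases h : ‖η‖ < 1
  · have h0 : pc G 0 η = G η := indicator_of_mem (mem_ball_zero_iff.2 h) G
    have := hasSum_single (f := fun k => pc G k η) 0 fun k hk => by
      obtain ⟨m, rfl⟩ := Nat.exists_eq_succ_of_ne_zero hk
      refine indicator_of_notMem (fun hm => ?_) G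
      have h1 : (1 : ℝ) ≤ 2 ^ m := one_le_pow₀ (by norm_num)
      linarith [hm.1]
    rwa [h0] at this
  · obtain ⟨m, hm1, hm2⟩ := exists_nat_pow_near (not_lt.1 h) (one_lt_two : (1 : ℝ) < 2)
    have h0 : pc G (m + 1) η = G η := indicator_of_mem (show η ∈ An n m from ⟨hm1, hm2⟩) G
    have := hasSum_single (f := fun k => pc G k η) (m + 1) fun k hk => by
      cases k with
      | zero => exact indicator_of_notMem (fun hb => h (mem_ball_zero_iff.1 hb)) G
      | succ k =>
        refine indicator_of_notMem (fun hb => ?_) G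
        have hkm : k ≠ m := fun h => hk (by rw [h])
        exact Set.disjoint_left.1 (disjoint_An hkm) hb ⟨hm1, hm2⟩
    rwa [h0] at this

/-- the weight of `H^s` -/
noncomputable def ws (s : ℝ) (η : E n) : ℝ≥0∞ :=
  ENNReal.ofReal ((1 + ‖(2 * Real.pi) • η‖ ^ 2) ^ s)

lemma ws_one {s : ℝ} (hs : 0 ≤ s) (η : E n) : 1 ≤ ws s η := by
  unfold ws
  rw [← ENNReal.ofReal_one]
  refine ENNReal.ofReal_le_ofReal (Real.one_le_rpow ?_ hs)
  have := sq_nonneg ‖(2 * Real.pi) • η‖
  linarith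

lemma l2_of_En {s : ℝ} (hs : 0 ≤ s) (hE : En (ws s) G < ⊤) : ∫⁻ η, ‖G η‖ₑ ^ 2 ≠ ⊤ :=
  ((lintegral_le_En (ws_one hs) G).trans_lt hE).ne

/-- the energies of the pieces -/
lemma sum_energy {s : ℝ} (hs : 0 ≤ s) :
    ∑' k : ℕ, ENNReal.ofReal (((2 : ℝ) ^ k) ^ (2 * s)) * ∫⁻ η, ‖pc G (k + 1) η‖ₑ ^ 2 ≤
      En (ws s) G := by
  have h1 : ∀ k : ℕ, ENNReal.ofReal (((2 : ℝ) ^ k) ^ (2 * s)) * ∫⁻ η, ‖pc G (k + 1) η‖ₑ ^ 2 ≤
      ∫⁻ η in An n k, ws s η * ‖G η‖ₑ ^ 2 := by
    intro k
    rw [← lintegral_const_mul' _ _ ENNReal.ofReal_ne_top, ← lintegral_indicator (measurableSet_An k)]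
    refine lintegral_mono fun η => ?_
    by_cases hη : η ∈ An n k
    · rw [indicator_of_mem hη]
      have e1 : pc G (k + 1) η = G η := indicator_of_mem hη G
      rw [e1]
      gcongr
      unfold ws
      refine ENNReal.ofReal_le_ofReal ?_
      have e2 : ((2 : ℝ) ^ k) ^ (2 * s) = (((2 : ℝ) ^ k) ^ 2) ^ s := by
        have := Real.rpow_natCast_mul (by positivity : (0 : ℝ) ≤ 2 ^ k) 2 s
        exact_mod_cast this
      rw [e2]
      refine Real.rpow_le_rpow (by positivity) ?_ hs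
      have h3 : (2 : ℝ) ^ k ≤ ‖(2 * Real.pi) • η‖ := by
        rw [norm_smul, Real.norm_eq_abs, abs_of_pos (by positivity)]
        have h4 := Real.pi_gt_three
        nlinarith [hη.1, norm_nonneg η]
      have h5 := pow_le_pow_left₀ (by positivity) h3 2
      linarith
    · rw [indicator_of_notMem hη]
      have e1 : pc G (k + 1) η = 0 := indicator_of_notMem hη G
      rw [e1]
      simp
  calc _ ≤ ∑' k : ℕ, ∫⁻ η in An n k, ws s η * ‖G η‖ₑ ^ 2 := ENNReal.tsum_le_tsum h1
    _ = ∫⁻ η in ⋃ k, An n k, ws s η * ‖G η‖ₑ ^ 2 :=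
        (lintegral_iUnion (fun k => measurableSet_An k) disjoint_An _).symm
    _ ≤ En (ws s) G := setLIntegral_le_lintegral _ _

/-- the bounds of the pieces -/
noncomputable def dl (A B s : ℝ) : ℕ → ℝ
  | 0 => B + 1
  | k + 1 => (A + 1) * ((2 : ℝ) ^ (-s)) ^ k

/-- the pieces satisfy the standing assumptions -/
theorem exists_pieces {s : ℝ} (hs : 0 < s) (hG : Measurable G) (hE : En (ws s) G < ⊤) :
    ∃ δ : ℕ → ℝ, Pieces (pc G) δ := by
  have h2 := l2_of_En hs.le hE
  have hL2 : ∀ k, MemLp (pc G k) 2 volume := by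
    intro k
    refine ⟨(measurable_pc hG k).aestronglyMeasurable, ?_⟩
    rw [eLpNorm_lt_top_iff_lintegral_rpow_enorm_lt_top (by norm_num) (by norm_num)]
    simp only [ENNReal.toReal_ofNat, ENNReal.rpow_ofNat]
    exact (lintegral_mono fun η => pow_le_pow_left' (norm_pc_le G _ η) 2).trans_lt
      (lt_top_iff_ne_top.2 h2)
  have hint : ∀ k, Integrable (pc G k) := by
    intro k
    have h1 : IntegrableOn (pc G k) (Metric.closedBall 0 (2 ^ k)) volume := by
      have : IsFiniteMeasure (volume.restrict (Metric.closedBall (0 : E n) (2 ^ k))) :=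
        ⟨by rw [Measure.restrict_apply_univ]; exact measure_closedBall_lt_top⟩
      exact ((hL2 k).restrict _).integrable one_le_two
    refine (integrableOn_iff_integrable_of_support_subset fun η hη => ?_).1 h1
    rw [mem_closedBall_zero_iff]
    exact supp_pc G k η hη
  have hsq : ∀ k, ∫ η, ‖pc G k η‖ ^ 2 = (∫⁻ η, ‖pc G k η‖ₑ ^ 2).toReal := by
    intro k
    rw [integral_eq_lintegral_of_nonneg_ae (Eventually.of_forall fun η => by positivity)
      ((measurable_pc hG k).norm.pow_const 2).aestronglyMeasurable]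
    congr 1
    refine lintegral_congr fun η => ?_
    rw [ENNReal.ofReal_pow (norm_nonneg _), ofReal_norm]
  set A : ℝ := (En (ws s) G).toReal with hA
  have hA0 : 0 ≤ A := ENNReal.toReal_nonneg
  have hk : ∀ k, ((2 : ℝ) ^ k) ^ (2 * s) * (∫⁻ η, ‖pc G (k + 1) η‖ₑ ^ 2).toReal ≤ A := by
    intro k
    have h3 := (ENNReal.le_tsum k).trans (sum_energy (G := G) hs.le)
    have h4 := ENNReal.toReal_mono hE.ne h3
    rw [ENNReal.toReal_mul, ENNReal.toReal_ofReal (by positivity)] at h4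
    exact h4
  set B : ℝ := (∫⁻ η, ‖pc G 0 η‖ₑ ^ 2).toReal with hB
  have hB0 : 0 ≤ B := ENNReal.toReal_nonneg
  have hq : (0 : ℝ) < (2 : ℝ) ^ (-s) := Real.rpow_pos_of_pos (by norm_num) _
  refine ⟨dl A B s, ⟨hint, hL2, fun k => ?_, fun k => ?_, ?_⟩⟩
  · rw [hsq]
    cases k with
    | zero =>
      rw [dl, ← hB]
      nlinarith
    | succ k =>
      rw [dl]
      have h3 := hk k
      have hX : (0 : ℝ) < 2 ^ k := by positivity
      have e0 : ((2 : ℝ) ^ (-s)) ^ k = ((2 : ℝ) ^ k) ^ (-s) := by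
        rw [← Real.rpow_natCast, ← Real.rpow_mul (by norm_num), mul_comm,
          Real.rpow_mul (by norm_num), Real.rpow_natCast]
      have e1 : (((2 : ℝ) ^ (-s)) ^ k) ^ 2 * ((2 : ℝ) ^ k) ^ (2 * s) = 1 := by
        have h5 := Real.rpow_pos_of_pos hX s
        rw [e0, two_mul, Real.rpow_add hX, Real.rpow_neg hX.le]
        field_simp
      have h4 : (∫⁻ η, ‖pc G (k + 1) η‖ₑ ^ 2).toReal =
          (((2 : ℝ) ^ (-s)) ^ k) ^ 2 *
            (((2 : ℝ) ^ k) ^ (2 * s) * (∫⁻ η, ‖pc G (k + 1) η‖ₑ ^ 2).toReal) := by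
        rw [← mul_assoc, e1, one_mul]
      rw [h4, mul_pow, mul_comm ((A + 1) ^ 2)]
      refine mul_le_mul_of_nonneg_left (h3.trans ?_) (pow_nonneg (pow_nonneg hq.le _) _)
      nlinarith
  · cases k with
    | zero => rw [dl]; positivity
    | succ k => rw [dl]; exact mul_pos (by positivity) (pow_pos hq _)
  · rw [← summable_nat_add_iff 1]
    refine (summable_geometric_of_lt_one hq.le ?_).mul_left _
    exact Real.rpow_lt_one_of_one_lt_of_neg (by norm_num) (by linarith)

end Vale.Agent.P076.R2.H64
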