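import Vale.Agent.P076.R2.H64.Thin1

/-!
# P076, thin sets of times: the exceptional intervals
-/

open MeasureTheory Complex FourierTransform Filter Topology Set
open scoped ENNReal NNReal

namespace Vale.Agent.P076.R2.H64

open Vale.Agent.P076 Vale.Agent.P076.H791

variable {n : ℕ} {G : E n → ℂ}

/-- the weight `l ^ (-α)`, `l ≥ 1` -/
noncomputable def cw (α : ℝ) (l : ℕ) : ℝ≥0∞ := if l = 0 then 0 else ENNReal.ofReal ((l : ℝ) ^ (-α))

lemma split_sum {α : ℝ} (h0 : 0 < α) {m : ℕ} (hm : 1 ≤ m) (M : ℕ → ℝ≥0∞) :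
    ∑' l, cw α l * M l ≤ ∑ l ∈ Finset.range m, cw α (l + 1) * M (l + 1) +
      ENNReal.ofReal ((m : ℝ) ^ (-α)) * ∑' l, M l := by
  have h1 : ∀ l, cw α l * M l ≤ (if l ∈ Finset.range (m + 1) then cw α l * M l else 0) +
      ENNReal.ofReal ((m : ℝ) ^ (-α)) * M l := by
    intro l
    split_ifs with h
    · exact le_self_add
    · rw [zero_add]
      gcongr
      rw [Finset.mem_range, not_lt] at h
      rw [cw, if_neg (by omega)]
      refine ENNReal.ofReal_le_ofReal (Real.rpow_le_rpow_of_nonpos (by positivity) ?_ (by linarith))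
      exact_mod_cast (by omega : m ≤ l)
  refine (ENNReal.tsum_le_tsum h1).trans ?_
  rw [ENNReal.tsum_add, ENNReal.tsum_mul_left]
  gcongr
  rw [tsum_eq_sum (s := Finset.range (m + 1)) (fun l hl => if_neg hl),
    Finset.sum_ite_mem, Finset.inter_self, Finset.sum_range_succ']
  simp [cw]

/-- finiteness almost everywhere -/
lemma sum_fin {s : ℝ} (hs : 0 ≤ s) (hE : En (ws s) G < ⊤) {T : ℕ → E n → ℝ≥0∞}
    (hT : ∀ k, Measurable (T k)) {C κ : ℝ} (hC : 0 ≤ C) (hκ : κ ≤ 2 * s)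
    (h : ∀ k : ℕ, ∫⁻ x, WW x * T k x ≤
      ENNReal.ofReal (C * ((2 : ℝ) ^ k) ^ κ) * ∫⁻ η, ‖pc G (k + 1) η‖ₑ ^ 2) :
    ∀ᵐ x : E n, ∑' k, T k x < ⊤ := by
  have h1 : ∫⁻ x : E n, WW x * ∑' k, T k x ≤ ENNReal.ofReal C * En (ws s) G := by
    calc ∫⁻ x : E n, WW x * ∑' k, T k x = ∑' k, ∫⁻ x : E n, WW x * T k x := by
          have hm3 : ∀ k, AEMeasurable (fun x : E n => WW x * T k x) volume := fun k =>
            (measurable_WW.mul (hT k)).aemeasurable
          rw [← lintegral_tsum hm3]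
          refine lintegral_congr fun x => ?_
          rw [← ENNReal.tsum_mul_left]
      _ ≤ ∑' k : ℕ, ENNReal.ofReal C *
          (ENNReal.ofReal (((2 : ℝ) ^ k) ^ (2 * s)) * ∫⁻ η, ‖pc G (k + 1) η‖ₑ ^ 2) := by
          refine ENNReal.tsum_le_tsum fun k => (h k).trans ?_
          rw [← mul_assoc, ← ENNReal.ofReal_mul hC]
          gcongr
          exact one_le_pow₀ (by norm_num)
      _ ≤ ENNReal.ofReal C * En (ws s) G := by
          rw [ENNReal.tsum_mul_left]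
          gcongr
          exact sum_energy hs
  have h2 : ∫⁻ x : E n, WW x * ∑' k, T k x ≠ ⊤ :=
    ne_top_of_le_ne_top (ENNReal.mul_ne_top ENNReal.ofReal_ne_top hE.ne) h1
  have h3 : Measurable fun x : E n => WW x * ∑' k, T k x :=
    measurable_WW.mul (Measurable.tsum hT)
  filter_upwards [ae_lt_top h3 h2] with x hx
  by_contra hcon
  rw [not_lt, top_le_iff] at hcon
  have h4 : WW x ≠ 0 := by
    unfold WW
    simp only [ne_eq, ENNReal.ofReal_eq_zero, not_le]
    positivity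
  rw [hcon, ENNReal.mul_top h4] at hx
  exact lt_irrefl _ hx

lemma WW_le_one (x : E n) : WW x ≤ 1 := by
  unfold WW
  rw [← ENNReal.ofReal_one]
  refine ENNReal.ofReal_le_ofReal (Real.exp_le_one_iff.2 ?_)
  have := sq_nonneg ‖x‖
  linarith

/-- one level, weight `l ^ (-α)` -/
lemma level_bound {α : ℝ} (h0 : 0 < α) (h1 : α < 1)
    (hsum : ∀ m : ℕ, ∑ l ∈ Finset.range m, ((l : ℝ) + 1) ^ (-α) ≤ (m : ℝ) ^ (1 - α) / (1 - α))
    {C : ℝ} (hC : 0 ≤ C) (k : ℕ) {N : ℝ≥0∞} {M : ℕ → E n → ℝ≥0∞} (hM : ∀ l, Measurable (M l))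
    (h3 : ∀ l, ∫⁻ x, M l x ≤ ENNReal.ofReal C * N)
    (h4 : ∫⁻ x, WW x * ∑' l, M l x ≤ ENNReal.ofReal (C * 2 ^ k) * N) :
    ∫⁻ x, WW x * ∑' l, cw α l * M l x ≤
      ENNReal.ofReal (C * (1 / (1 - α) + 1) * ((2 : ℝ) ^ k) ^ (1 - α)) * N := by
  have hm : 1 ≤ 2 ^ k := Nat.one_le_two_pow
  have hX : (0 : ℝ) < 2 ^ k := by positivity
  have e0 : (((2 ^ k : ℕ) : ℝ)) = 2 ^ k := by push_cast; rfl
  have hα : 0 < 1 - α := by linarith
  have hms : ∀ l, Measurable fun x : E n => cw α (l + 1) * M (l + 1) x :=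
    fun l => (hM (l + 1)).const_mul _
  have hm2 : Measurable fun x : E n => ∑ l ∈ Finset.range (2 ^ k), cw α (l + 1) * M (l + 1) x :=
    Finset.measurable_fun_sum _ fun l _ => hms l
  have e1 : ∀ l, cw α (l + 1) = ENNReal.ofReal (((l : ℝ) + 1) ^ (-α)) := by
    intro l
    rw [cw, if_neg (by omega)]
    push_cast
    rfl
  calc ∫⁻ x : E n, WW x * ∑' l, cw α l * M l x
      ≤ ∫⁻ x : E n, (∑ l ∈ Finset.range (2 ^ k), cw α (l + 1) * M (l + 1) x +
          ENNReal.ofReal (((2 ^ k : ℕ) : ℝ) ^ (-α)) * (WW x * ∑' l, M l x)) := by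
        refine lintegral_mono fun x => ?_
        refine (mul_le_mul_right (split_sum h0 hm fun l => M l x) (WW x)).trans ?_
        rw [mul_add]
        refine add_le_add ?_ (le_of_eq (by ring))
        exact mul_le_of_le_one_left' (WW_le_one x)
    _ = (∑ l ∈ Finset.range (2 ^ k), cw α (l + 1) * ∫⁻ x : E n, M (l + 1) x) +
          ENNReal.ofReal (((2 ^ k : ℕ) : ℝ) ^ (-α)) * ∫⁻ x : E n, WW x * ∑' l, M l x := by
        rw [lintegral_add_left hm2, lintegral_const_mul' _ _ ENNReal.ofReal_ne_top,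
          lintegral_finsetSum _ fun l _ => hms l]
        congr 1
        refine Finset.sum_congr rfl fun l _ => ?_
        rw [lintegral_const_mul _ (hM (l + 1))]
    _ ≤ (∑ l ∈ Finset.range (2 ^ k), cw α (l + 1) * (ENNReal.ofReal C * N)) +
          ENNReal.ofReal (((2 ^ k : ℕ) : ℝ) ^ (-α)) * (ENNReal.ofReal (C * 2 ^ k) * N) := by
        gcongr with l hl
        exact h3 _
    _ ≤ ENNReal.ofReal (((2 : ℝ) ^ k) ^ (1 - α) / (1 - α)) * (ENNReal.ofReal C * N) +
          ENNReal.ofReal (((2 : ℝ) ^ k) ^ (-α)) * (ENNReal.ofReal (C * 2 ^ k) * N) := by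
        rw [← Finset.sum_mul, e0]
        refine add_le_add (mul_le_mul_left ?_ _) le_rfl
        simp_rw [e1]
        rw [← ENNReal.ofReal_sum_of_nonneg fun l _ => by positivity]
        refine ENNReal.ofReal_le_ofReal ((hsum _).trans (le_of_eq ?_))
        rw [e0]
    _ = ENNReal.ofReal (C * (1 / (1 - α) + 1) * ((2 : ℝ) ^ k) ^ (1 - α)) * N := by
        have hp1 := Real.rpow_pos_of_pos hX (1 - α)
        have hp2 := Real.rpow_pos_of_pos hX (-α)
        rw [← mul_assoc, ← mul_assoc, ← ENNReal.ofReal_mul (by positivity),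
          ← ENNReal.ofReal_mul hp2.le, ← add_mul, ← ENNReal.ofReal_add (by positivity) (by positivity)]
        congr 2
        have e2 : ((2 : ℝ) ^ k) ^ (-α) * (C * 2 ^ k) = C * ((2 : ℝ) ^ k) ^ (1 - α) := by
          have : ((2 : ℝ) ^ k) ^ (1 - α) = (2 : ℝ) ^ k * ((2 : ℝ) ^ k) ^ (-α) := by
            rw [sub_eq_add_neg, Real.rpow_add hX, Real.rpow_one]
          rw [this]
          ring
        rw [e2]
        field_simp

end Vale.Agent.P076.R2.H64
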