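import Vale.Agent.P076.R2.H64.Thin2
import Vale.Agent.P076.R2.H64.Cell

/-!
# P076, thin sets of times: the data at almost every point
-/

open MeasureTheory Complex FourierTransform Filter Topology Set
open scoped ENNReal NNReal

namespace Vale.Agent.P076.R2.H64

open Vale.Agent.P076 Vale.Agent.P076.H791

variable {n : ℕ} {G : E n → ℂ}

lemma norm_le_of_enorm {z : ℂ} {c : ℝ} (hc : 0 ≤ c) (h : ‖z‖ₑ ^ 2 ≤ ENNReal.ofReal (c ^ 2)) :
    ‖z‖ ≤ c := by
  rw [← ofReal_norm, ← ENNReal.ofReal_pow (norm_nonneg _)] at h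
  have h1 := (ENNReal.ofReal_le_ofReal_iff (by positivity)).1 h
  exact (pow_le_pow_iff_left₀ (norm_nonneg _) hc (by norm_num)).1 h1

/-- the factor of Chebyshev's inequality -/
noncomputable def qk (d : ℝ) (k : ℕ) : ℝ≥0∞ := ENNReal.ofReal (((2 : ℝ) ^ k) ^ (2 * d))

lemma qk_mul (d : ℝ) (k : ℕ) : qk d k * ENNReal.ofReal ((((2 : ℝ) ^ k) ^ (-d)) ^ 2) = 1 := by
  have hX : (0 : ℝ) < 2 ^ k := by positivity
  have h5 := Real.rpow_pos_of_pos hX d
  unfold qk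
  rw [← ENNReal.ofReal_mul (by positivity), two_mul, Real.rpow_add hX, Real.rpow_neg hX.le]
  rw [← ENNReal.ofReal_one]
  congr 1
  field_simp

lemma one_le_of_bad {d : ℝ} {k : ℕ} {m : ℝ≥0∞}
    (h : ENNReal.ofReal ((((2 : ℝ) ^ k) ^ (-d)) ^ 2) < m) : 1 ≤ qk d k * m := by
  rw [← qk_mul d k]
  exact mul_le_mul_right h.le _

/-- eventually small terms -/
lemma ev_small {T : ℕ → ℝ≥0∞} (h : ∑' k, T k < ⊤) : ∃ k0, ∀ k ≥ k0, T k < 1 := by
  have h1 := ENNReal.tendsto_cofinite_zero_of_tsum_ne_top h.ne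
  rw [Nat.cofinite_eq_atTop] at h1
  have h2 := h1.eventually (gt_mem_nhds (zero_lt_one : (0 : ℝ≥0∞) < 1))
  exact eventually_atTop.1 h2

/-- **The exceptional intervals.** -/
theorem thin_data (hn : 1 ≤ n) {s d α β : ℝ} (hd : 0 < d) (hds : d ≤ s) (hα0 : 0 < α)
    (hα1 : α < 1) (hα : 2 * d + 1 - α ≤ 2 * s) (hβ : 2 * d + 1 - 2 * β ≤ 2 * s)
    (hsum : ∀ m : ℕ, ∑ l ∈ Finset.range m, ((l : ℝ) + 1) ^ (-α) ≤ (m : ℝ) ^ (1 - α) / (1 - α))
    (hG : Measurable G) (hE : En (ws s) G < ⊤) :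
    ∀ᵐ x : E n, ∃ S : Set (ℕ × ℕ), (∀ p ∈ S, 1 ≤ p.2) ∧
      Summable (fun p : S => (p.1.2 : ℝ) ^ (-α)) ∧
      Summable (fun p : S => ((4 : ℝ) ^ p.1.1) ^ (-β)) ∧ ∃ k0 : ℕ,
        (∀ k ≥ k0, ∀ t ∈ Il ((2 : ℝ) ^ k) 0, ∀ a : ℝ, 0 ≤ a →
          ‖evo (pc G (k + 1)) x t a‖ ≤ ((2 : ℝ) ^ k) ^ (-d)) ∧
        (∀ k ≥ k0, ∀ t ∈ Il ((2 : ℝ) ^ k) 0,
          ‖evo (dG (pc G (k + 1))) x t 0‖ ≤ 4 ^ k * ((2 : ℝ) ^ k) ^ (-d)) ∧
        (∀ k l : ℕ, 1 ≤ l → (k, l) ∉ S → ∀ t ∈ Il ((2 : ℝ) ^ k) l, ∀ a : ℝ, 0 ≤ a →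
          ‖evo (pc G (k + 1)) x t a‖ ≤ ((2 : ℝ) ^ k) ^ (-d)) := by
  have hs : 0 < s := hd.trans_le hds
  have h2 := l2_of_En hs.le hE
  obtain ⟨C, hC, hcore⟩ := core (specK hn) (specS n) (specA n)
  have hsh : ∀ k, Shell ((2 : ℝ) ^ k) (pc G (k + 1)) := shell_pc hG h2
  choose M hM1 hM2 hM3 hM4 using fun k : ℕ => hcore ((2 : ℝ) ^ k) (pc G (k + 1)) (by positivity) (hsh k)
  choose M' hM1' hM2' hM3' _ using fun k : ℕ => hcore ((2 : ℝ) ^ k) (dG (pc G (k + 1)))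
    (by positivity) (shell_dG (by positivity) (hsh k))
  have hα' : 0 < 1 - α := by linarith
  have hX : ∀ k : ℕ, (0 : ℝ) < 2 ^ k := fun k => by positivity
  have hX1 : ∀ k : ℕ, (1 : ℝ) ≤ 2 ^ k := fun k => one_le_pow₀ (by norm_num)
  -- the sums
  have hA : ∀ᵐ x : E n, ∑' k, qk d k * ∑' l, cw α l * M k l x < ⊤ := by
    refine sum_fin (G := G) hs.le hE (fun k => (Measurable.tsum fun l => (hM1 k l).const_mul _).const_mul _)
      (C := C * (1 / (1 - α) + 1)) (κ := 2 * d + 1 - α) (by positivity) hα fun k => ?_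
    have h3 := level_bound hα0 hα1 hsum hC k (hM1 k) (hM3 k) (hM4 k)
    have e1 : ∀ x : E n, WW x * (qk d k * ∑' l, cw α l * M k l x) =
        qk d k * (WW x * ∑' l, cw α l * M k l x) := fun x => by ring
    simp_rw [e1]
    rw [lintegral_const_mul' _ _ (by unfold qk; exact ENNReal.ofReal_ne_top)]
    refine (mul_le_mul_right h3 _).trans (le_of_eq ?_)
    rw [← mul_assoc]
    congr 1
    unfold qk
    rw [← ENNReal.ofReal_mul (by positivity)]
    congr 1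
    have e2 : ((2 : ℝ) ^ k) ^ (2 * d + 1 - α) = ((2 : ℝ) ^ k) ^ (2 * d) * ((2 : ℝ) ^ k) ^ (1 - α) := by
      rw [← Real.rpow_add (hX k)]
      congr 1
      ring
    rw [e2]
    ring
  have hB : ∀ᵐ x : E n, ∑' k, ENNReal.ofReal (((4 : ℝ) ^ k) ^ (-β)) * (qk d k * ∑' l, M k l x) < ⊤ := by
    refine sum_fin (G := G) hs.le hE
      (fun k => ((Measurable.tsum fun l => hM1 k l).const_mul _).const_mul _)
      (C := C) (κ := 2 * d + 1 - 2 * β) hC hβ fun k => ?_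
    have e1 : ∀ x : E n, WW x * (ENNReal.ofReal (((4 : ℝ) ^ k) ^ (-β)) * (qk d k * ∑' l, M k l x)) =
        (ENNReal.ofReal (((4 : ℝ) ^ k) ^ (-β)) * qk d k) * (WW x * ∑' l, M k l x) := fun x => by ring
    simp_rw [e1]
    rw [lintegral_const_mul' _ _ (ENNReal.mul_ne_top ENNReal.ofReal_ne_top
      (by unfold qk; exact ENNReal.ofReal_ne_top))]
    refine (mul_le_mul_right (hM4 k) _).trans (le_of_eq ?_)
    rw [← mul_assoc]
    congr 1
    unfold qk
    rw [← ENNReal.ofReal_mul (by positivity), ← ENNReal.ofReal_mul (by positivity)]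
    congr 1
    have e3 : ((4 : ℝ) ^ k) ^ (-β) = ((2 : ℝ) ^ k) ^ (-(2 * β)) := by
      have h5 : (4 : ℝ) ^ k = ((2 : ℝ) ^ k) ^ 2 := by
        rw [← pow_mul, mul_comm, pow_mul]
        norm_num
      have h6 := Real.rpow_natCast_mul (hX k).le 2 (-β)
      rw [h5, ← h6]
      congr 1
      push_cast
      ring
    have e2 : ((2 : ℝ) ^ k) ^ (2 * d + 1 - 2 * β) =
        ((2 : ℝ) ^ k) ^ (-(2 * β)) * ((2 : ℝ) ^ k) ^ (2 * d) * 2 ^ k := by
      rw [← Real.rpow_add (hX k)]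
      nth_rewrite 3 [← Real.rpow_one ((2 : ℝ) ^ k)]
      rw [← Real.rpow_add (hX k)]
      congr 1
      ring
    rw [e2, e3]
    ring
  have h0 : ∀ᵐ x : E n, ∑' k, qk d k * M k 0 x < ⊤ := by
    refine sum_fin (G := G) hs.le hE (fun k => (hM1 k 0).const_mul _)
      (C := C) (κ := 2 * d) hC (by linarith) fun k => ?_
    calc ∫⁻ x, WW x * (qk d k * M k 0 x) ≤ ∫⁻ x, qk d k * M k 0 x :=
          lintegral_mono fun x => mul_le_of_le_one_left' (WW_le_one x)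
      _ = qk d k * ∫⁻ x, M k 0 x := lintegral_const_mul _ (hM1 k 0)
      _ ≤ qk d k * (ENNReal.ofReal C * ∫⁻ η, ‖pc G (k + 1) η‖ₑ ^ 2) := mul_le_mul_right (hM3 k 0) _
      _ = _ := by
          rw [← mul_assoc]
          congr 1
          unfold qk
          rw [← ENNReal.ofReal_mul (by positivity), mul_comm]
  have h0' : ∀ᵐ x : E n, ∑' k, qk d k * (ENNReal.ofReal (((4 : ℝ) ^ k)⁻¹ ^ 2) * M' k 0 x) < ⊤ := by
    refine sum_fin (G := G) hs.le hE (fun k => ((hM1' k 0).const_mul _).const_mul _)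
      (C := C * (8 * Real.pi) ^ 2) (κ := 2 * d) (by positivity) (by linarith) fun k => ?_
    calc ∫⁻ x, WW x * (qk d k * (ENNReal.ofReal (((4 : ℝ) ^ k)⁻¹ ^ 2) * M' k 0 x))
        ≤ ∫⁻ x, qk d k * (ENNReal.ofReal (((4 : ℝ) ^ k)⁻¹ ^ 2) * M' k 0 x) :=
          lintegral_mono fun x => mul_le_of_le_one_left' (WW_le_one x)
      _ = qk d k * (ENNReal.ofReal (((4 : ℝ) ^ k)⁻¹ ^ 2) * ∫⁻ x, M' k 0 x) := by
          rw [lintegral_const_mul _ ((hM1' k 0).const_mul _), lintegral_const_mul _ (hM1' k 0)]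
      _ ≤ qk d k * (ENNReal.ofReal (((4 : ℝ) ^ k)⁻¹ ^ 2) * (ENNReal.ofReal C *
          (ENNReal.ofReal ((8 * Real.pi * ((2 : ℝ) ^ k) ^ 2) ^ 2) *
            ∫⁻ η, ‖pc G (k + 1) η‖ₑ ^ 2))) := by
          gcongr
          exact (hM3' k 0).trans (mul_le_mul_right (lint_dG (hX k).le (hsh k)) _)
      _ = _ := by
          rw [← mul_assoc, ← mul_assoc, ← mul_assoc]
          congr 1
          unfold qk
          rw [← ENNReal.ofReal_mul (by positivity), ← ENNReal.ofReal_mul (by positivity),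
            ← ENNReal.ofReal_mul (by positivity)]
          congr 1
          have h5 : (4 : ℝ) ^ k = ((2 : ℝ) ^ k) ^ 2 := by
            rw [← pow_mul, mul_comm, pow_mul]
            norm_num
          rw [h5]
          have := (hX k).ne'
          field_simp
  filter_upwards [hA, hB, h0, h0'] with x hxA hxB hx0 hx0'
  set S : Set (ℕ × ℕ) := {p | 1 ≤ p.2 ∧
    ENNReal.ofReal ((((2 : ℝ) ^ p.1) ^ (-d)) ^ 2) < M p.1 p.2 x} with hS
  obtain ⟨k1, hk1⟩ := ev_small hx0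
  obtain ⟨k2, hk2⟩ := ev_small hx0'
  refine ⟨S, fun p hp => hp.1, ?_, ?_, max k1 k2, ?_, ?_, ?_⟩
  · have h3 : ∑' p : S, ENNReal.ofReal ((p.1.2 : ℝ) ^ (-α)) ≤
        ∑' k, qk d k * ∑' l, cw α l * M k l x := by
      calc ∑' p : S, ENNReal.ofReal ((p.1.2 : ℝ) ^ (-α))
          ≤ ∑' p : S, qk d p.1.1 * (cw α p.1.2 * M p.1.1 p.1.2 x) := by
            refine ENNReal.tsum_le_tsum fun p => ?_
            have h4 := one_le_of_bad p.2.2
            have h5 : cw α p.1.2 = ENNReal.ofReal ((p.1.2 : ℝ) ^ (-α)) :=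
              if_neg (by have := p.2.1; omega)
            rw [h5]
            calc ENNReal.ofReal ((p.1.2 : ℝ) ^ (-α)) = ENNReal.ofReal ((p.1.2 : ℝ) ^ (-α)) * 1 := by
                  rw [mul_one]
              _ ≤ ENNReal.ofReal ((p.1.2 : ℝ) ^ (-α)) * (qk d p.1.1 * M p.1.1 p.1.2 x) :=
                  mul_le_mul_right h4 _
              _ = _ := by ring
        _ ≤ ∑' p : ℕ × ℕ, qk d p.1 * (cw α p.2 * M p.1 p.2 x) :=
            ENNReal.tsum_comp_le_tsum_of_injective Subtype.val_injective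
              fun p : ℕ × ℕ => qk d p.1 * (cw α p.2 * M p.1 p.2 x)
        _ = ∑' k, qk d k * ∑' l, cw α l * M k l x := by
            rw [ENNReal.tsum_prod']
            simp_rw [ENNReal.tsum_mul_left]
    have h4 := ENNReal.summable_toReal (h3.trans_lt hxA).ne
    refine h4.congr fun p => ?_
    rw [ENNReal.toReal_ofReal (by positivity)]
  · have h3 : ∑' p : S, ENNReal.ofReal (((4 : ℝ) ^ p.1.1) ^ (-β)) ≤
        ∑' k, ENNReal.ofReal (((4 : ℝ) ^ k) ^ (-β)) * (qk d k * ∑' l, M k l x) := by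
      calc ∑' p : S, ENNReal.ofReal (((4 : ℝ) ^ p.1.1) ^ (-β))
          ≤ ∑' p : S, ENNReal.ofReal (((4 : ℝ) ^ p.1.1) ^ (-β)) * (qk d p.1.1 * M p.1.1 p.1.2 x) := by
            refine ENNReal.tsum_le_tsum fun p => ?_
            have h4 := one_le_of_bad p.2.2
            calc _ = ENNReal.ofReal (((4 : ℝ) ^ p.1.1) ^ (-β)) * 1 := by rw [mul_one]
              _ ≤ _ := mul_le_mul_right h4 _
        _ ≤ ∑' p : ℕ × ℕ, ENNReal.ofReal (((4 : ℝ) ^ p.1) ^ (-β)) * (qk d p.1 * M p.1 p.2 x) :=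
            ENNReal.tsum_comp_le_tsum_of_injective Subtype.val_injective
              fun p : ℕ × ℕ => ENNReal.ofReal (((4 : ℝ) ^ p.1) ^ (-β)) * (qk d p.1 * M p.1 p.2 x)
        _ = _ := by
            rw [ENNReal.tsum_prod']
            simp_rw [ENNReal.tsum_mul_left]
    have h4 := ENNReal.summable_toReal (h3.trans_lt hxB).ne
    refine h4.congr fun p => ?_
    rw [ENNReal.toReal_ofReal (by positivity)]
  · intro k hk t ht a ha
    refine norm_le_of_enorm (by positivity) ((hM2 k 0 x t ht a ha).trans ?_)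
    by_contra hcon
    rw [not_le] at hcon
    exact absurd (one_le_of_bad hcon) (not_le.2 (hk1 k ((le_max_left _ _).trans hk)))
  · intro k hk t ht
    have h4 : (4 : ℝ) ^ k * ((2 : ℝ) ^ k) ^ (-d) ≥ 0 := by positivity
    refine norm_le_of_enorm h4 ((hM2' k 0 x t ht 0 le_rfl).trans ?_)
    by_contra hcon
    rw [not_le, mul_pow, ENNReal.ofReal_mul (by positivity)] at hcon
    have h5 : ENNReal.ofReal ((((2 : ℝ) ^ k) ^ (-d)) ^ 2) <
        ENNReal.ofReal (((4 : ℝ) ^ k)⁻¹ ^ 2) * M' k 0 x := by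
      by_contra hc
      rw [not_lt] at hc
      refine absurd hcon (not_lt.2 ?_)
      calc M' k 0 x = ENNReal.ofReal (((4 : ℝ) ^ k) ^ 2) *
            (ENNReal.ofReal (((4 : ℝ) ^ k)⁻¹ ^ 2) * M' k 0 x) := by
            rw [← mul_assoc, ← ENNReal.ofReal_mul (by positivity), inv_pow,
              mul_inv_cancel₀ (by positivity), ENNReal.ofReal_one, one_mul]
        _ ≤ _ := mul_le_mul_right hc _
    exact absurd (one_le_of_bad h5) (not_le.2 (hk2 k ((le_max_right _ _).trans hk)))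
  · intro k l hl hkl t ht a ha
    refine norm_le_of_enorm (by positivity) ((hM2 k l x t ht a ha).trans ?_)
    by_contra hcon
    rw [not_le] at hcon
    exact hkl ⟨hl, hcon⟩

end Vale.Agent.P076.R2.H64
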