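import Vale.Agent.P076.R2.H64.Thin3
import Vale.Agent.P076.R2.H64.Cell
import Vale.Agent.P076.R2.H305.DetEnd
import Vale.Agent.P076.R2.H909.Rate
import Vale.Agent.P076.R2.H922.SumRpow

/-!
# P076, thin sets of times: the theorem in terms of the regularised integrals
-/

open MeasureTheory Complex FourierTransform Filter Topology Set
open scoped ENNReal NNReal

namespace Vale.Agent.P076.R2.H64

open Vale.Agent.P076 Vale.Agent.P076.H791

variable {n : ℕ}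

lemma hh_two (k : ℕ) : hh ((2 : ℝ) ^ k) = 2 * Real.pi / 4 ^ k := by
  unfold hh
  rw [← pow_mul, mul_comm k 2, pow_mul]
  norm_num

lemma mem_Il_of {k l : ℕ} {t : ℝ} (h1 : (l : ℝ) ≤ t * 4 ^ k) (h2 : t * 4 ^ k ≤ l + 1) :
    2 * Real.pi * t ∈ Il ((2 : ℝ) ^ k) l := by
  have h4 : (0 : ℝ) < 4 ^ k := by positivity
  have hpi : (0 : ℝ) < 2 * Real.pi := by positivity
  refine ⟨?_, ?_⟩
  · rw [hh_two, mul_div_assoc', div_le_iff₀ h4]
    nlinarith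
  · rw [hh_two]
    have e1 : (l : ℝ) * (2 * Real.pi / 4 ^ k) + 2 * Real.pi / 4 ^ k =
        2 * Real.pi * ((l + 1) / 4 ^ k) := by ring
    rw [e1]
    refine mul_le_mul_of_nonneg_left ?_ hpi.le
    rw [le_div_iff₀ h4]
    exact h2

lemma mem_cell_of {k l : ℕ} {t : ℝ} (h1 : (l : ℝ) ≤ t * 4 ^ k) (h2 : t * 4 ^ k ≤ l + 1) :
    t ∈ cell (k, l) := by
  have h4 : (0 : ℝ) < 4 ^ k := by positivity
  refine ⟨?_, ?_⟩
  · simp only
    rw [div_le_iff₀ h4]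
    exact h1
  · simp only
    rw [le_div_iff₀ h4]
    exact h2

lemma ff_eq {s : ℝ} (hs : 0 < s) (F : Lp ℂ 2 (volume : Measure (E n)))
    (hE : En (ws s) (fun η => (𝓕 F : Lp ℂ 2 (volume : Measure (E n))) η) < ⊤) :
    ∀ᵐ x : E n, HasSum (fun k => evo (pc (fun η => (𝓕 F : Lp ℂ 2 (volume : Measure (E n))) η) k)
      x 0 0) (F x) := by
  set G : E n → ℂ := fun η => (𝓕 F : Lp ℂ 2 (volume : Measure (E n))) η with hG
  have hGm : Measurable G := (Lp.stronglyMeasurable _).measurable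
  obtain ⟨δ, hδ⟩ := exists_pieces hs hGm hE
  obtain ⟨f, hf1, hf2⟩ := exists_f hδ
  have hGf : ∀ᵐ η, (𝓕 f : Lp ℂ 2 (volume : Measure (E n))) η = G η := by
    filter_upwards [hf1] with η hη'
    exact hη'.unique (hasSum_pc G η)
  have hfF : f = F := by
    have h1 : (𝓕 f : Lp ℂ 2 (volume : Measure (E n))) = 𝓕 F := Lp.ext hGf
    exact (Lp.fourierTransformₗᵢ (E n) ℂ).injective h1
  subst hfF
  exact hf2

lemma summable_e {d : ℝ} (hd : 0 < d) : Summable fun k : ℕ => ((2 : ℝ) ^ (k - 1)) ^ (-d) := by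
  rw [← summable_nat_add_iff 1]
  have hq : (0 : ℝ) < (2 : ℝ) ^ (-d) := Real.rpow_pos_of_pos (by norm_num) _
  have h1 : Summable fun k : ℕ => ((2 : ℝ) ^ (-d)) ^ k := by
    refine summable_geometric_of_lt_one hq.le ?_
    exact Real.rpow_lt_one_of_one_lt_of_neg (by norm_num) (by linarith)
  refine h1.congr fun k => ?_
  rw [Nat.add_sub_cancel, ← Real.rpow_natCast, ← Real.rpow_mul (by norm_num), mul_comm,
    Real.rpow_mul (by norm_num), Real.rpow_natCast]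

theorem thin_evo (hn : 1 ≤ n) {s γ α β : ℝ} (hγ : 0 < γ) (hγ1 : γ < 1) (hγs : 2 * γ < s) (hα0 : 0 < α)
    (hα : 1 - 2 * (s - 2 * γ) ≤ α) (hβ : 1 / 2 - (s - 2 * γ) ≤ β) (F : Lp ℂ 2 (volume : Measure (E n)))
    (hE : En (fun η : E n => ENNReal.ofReal ((1 + ‖(2 * Real.pi) • η‖ ^ 2) ^ s))
      (fun η => (𝓕 F : Lp ℂ 2 (volume : Measure (E n))) η) < ⊤) :
    ∀ᵐ x : E n, ∃ S : Set (ℕ × ℕ), (∀ p ∈ S, 1 ≤ p.2) ∧ Summable (fun p : S => (p.1.2 : ℝ) ^ (-α)) ∧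
      Summable (fun p : S => ((4 : ℝ) ^ p.1.1) ^ (-β)) ∧
      ∃ u : ℝ → ℂ, ContinuousOn u (good S) ∧ u 0 = F x ∧
        (∀ t ∈ good S, Tendsto (fun a => evo (fun η => (𝓕 F : Lp ℂ 2 (volume : Measure (E n))) η) x (2 * Real.pi * t) a)
          (𝓝[>] 0) (𝓝 (u t))) ∧
        ∃ C : ℝ, ∀ t ∈ good S, t ≤ 1 → ‖u t - F x‖ ≤ C * t ^ γ := by
  have hs : 0 < s := by linarith
  have hpi : (0 : ℝ) < 2 * Real.pi := by positivity
  set G : E n → ℂ := fun η => (𝓕 F : Lp ℂ 2 (volume : Measure (E n))) η with hG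
  have hGm : Measurable G := (Lp.stronglyMeasurable _).measurable
  have hE' : En (ws s) G < ⊤ := hE
  set α' : ℝ := min α (max (1 - 2 * (s - 2 * γ)) (1 / 2)) with hα'
  have h1 : 0 < α' := lt_min hα0 (lt_max_of_lt_right (by norm_num))
  have h2 : α' < 1 := (min_le_right _ _).trans_lt (max_lt (by linarith) (by norm_num))
  have h3 : 1 - 2 * (s - 2 * γ) ≤ α' := le_min hα (le_max_left _ _)
  have h4 : α' ≤ α := min_le_left _ _
  obtain ⟨δ, hδ⟩ := exists_pieces hs hGm hE'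
  have hT := thin_data hn (s := s) (d := 2 * γ) (α := α') (β := β) (G := G) (by linarith) hγs.le h1 h2
    (by linarith) (by linarith) (fun m => Vale.Agent.P076.R2.H922.sum_rpow h1 h2 m) hGm hE'
  filter_upwards [hT, ff_eq hs F hE'] with x hx hxF
  obtain ⟨S, hS1, hS2, hS3, k0, hk1, hk2, hk3⟩ := hx
  set Z : Set ℝ := (fun t => 2 * Real.pi * t) '' good S with hZ
  have hbd : ∀ k ≥ k0, ∀ σ ∈ Z, ∀ a : ℝ, 0 ≤ a →
      ‖evo (pc G (k + 1)) x σ a‖ ≤ ((2 : ℝ) ^ k) ^ (-(2 * γ)) := by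
    rintro k hk σ ⟨t, ht, rfl⟩ a ha
    have ht0 : 0 ≤ t := ht.1
    have h5 : 0 ≤ t * 4 ^ k := by positivity
    have h6 : (⌊t * 4 ^ k⌋₊ : ℝ) ≤ t * 4 ^ k := Nat.floor_le h5
    have h7 : t * 4 ^ k ≤ (⌊t * 4 ^ k⌋₊ : ℝ) + 1 := (Nat.lt_floor_add_one _).le
    have h8 := mem_Il_of h6 h7
    rcases Nat.eq_zero_or_pos ⌊t * 4 ^ k⌋₊ with h9 | h9
    · rw [h9] at h8
      exact hk1 k hk _ h8 a ha
    · refine hk3 k _ h9 (fun hS => ht.2 ?_) _ h8 a ha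
      exact mem_biUnion hS (mem_cell_of h6 h7)
  have hbe : ∀ k ≥ k0 + 1, ∀ σ ∈ Z, ∀ a : ℝ, 0 ≤ a →
      ‖evo (pc G k) x σ a‖ ≤ ((2 : ℝ) ^ (k - 1)) ^ (-(2 * γ)) := by
    intro k hk σ hσ a ha
    obtain ⟨j, rfl⟩ : ∃ j, k = j + 1 := ⟨k - 1, by omega⟩
    exact hbd j (by omega) σ hσ a ha
  obtain ⟨hd1, hd2⟩ := det_end hδ (Eventually.of_forall fun η => hasSum_pc G η) x
    (summable_e (by linarith : 0 < 2 * γ)) hbe
  have hZ0 : Z ⊆ Ici 0 := by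
    rintro σ ⟨t, ht, rfl⟩
    have ht0 : 0 ≤ t := ht.1
    have : 0 ≤ 2 * Real.pi * t := by positivity
    exact this
  obtain ⟨C, hC⟩ := H909.Rate.rate_end hδ (fun k => ⟨2 ^ k, supp_pc G k⟩) x hZ0 (by linarith : 0 < 2 * γ)
    (by linarith) (k0 := k0)
    (fun k hk => hk1 k hk 0 (by
      have := mem_Il_of (k := k) (l := 0) (t := 0) (by simp) (by simp)
      simpa using this) 0 le_rfl)
    (fun k hk σ hσ => hbd k hk σ hσ 0 le_rfl)
    (fun k hk σ hσ => hk2 k hk σ (by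
      unfold Il
      simpa using hσ))
  refine ⟨S, hS1, ?_, hS3, fun t => ∑' k, evo (pc G k) x (2 * Real.pi * t) 0, ?_, ?_, ?_,
    C * (2 * Real.pi) ^ γ, ?_⟩
  · refine Summable.of_nonneg_of_le (fun p => by positivity) (fun p => ?_) hS2
    have h5 : (1 : ℝ) ≤ p.1.2 := by exact_mod_cast hS1 p.1 p.2
    exact Real.rpow_le_rpow_of_exponent_le h5 (by linarith)
  · have hc : Continuous fun t : ℝ => 2 * Real.pi * t := continuous_const.mul continuous_id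
    exact hd1.comp hc.continuousOn fun t ht => ⟨t, ht, rfl⟩
  · simp only [mul_zero]
    exact hxF.tsum_eq
  · intro t ht
    exact hd2 _ ⟨t, ht, rfl⟩
  · intro t ht ht1
    have ht0 : 0 ≤ t := ht.1
    have h5 := hC (2 * Real.pi * t) ⟨t, ht, rfl⟩ (by nlinarith)
    rw [hxF.tsum_eq] at h5
    refine h5.trans (le_of_eq ?_)
    rw [Real.mul_rpow hpi.le ht0, mul_div_cancel_left₀ _ (by norm_num : (2 : ℝ) ≠ 0), mul_assoc]

end Vale.Agent.P076.R2.H64
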