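import Vale.Agent.P076.R2.H64.Thin4

/-!
# P076, thin sets of times: the theorem
-/

open MeasureTheory Complex FourierTransform Filter Topology Set
open scoped ENNReal NNReal

namespace Vale.Agent.P076.R2.H64

open Vale.Agent.P076 Vale.Agent.P076.H791

variable {n : ℕ}

theorem thin_final (hn : 1 ≤ n) {s γ α β : ℝ} (hγ : 0 < γ) (hγ1 : γ < 1) (hγs : 2 * γ < s) (hα0 : 0 < α)
    (hα : 1 - 2 * (s - 2 * γ) ≤ α) (hβ : 1 / 2 - (s - 2 * γ) ≤ β) {f g : (Fin n → ℝ) → ℂ}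
    (hfg : IsFourierPair f g) (hf : Integrable fun ξ => (1 + nrm ξ ^ 2) ^ s * ‖g ξ‖ ^ 2) :
    ∀ᵐ x, ∃ S : Set (ℕ × ℕ), (∀ p ∈ S, 1 ≤ p.2) ∧ Summable (fun p : S => (p.1.2 : ℝ) ^ (-α)) ∧
      Summable (fun p : S => ((4 : ℝ) ^ p.1.1) ^ (-β)) ∧
      ∃ u : ℝ → ℂ, ContinuousOn u (good S) ∧ u 0 = f x ∧
        (∀ t ∈ good S, Tendsto (fun a => evolve g t a x) (𝓝[>] 0) (𝓝 (u t))) ∧
        ∃ C : ℝ, ∀ t ∈ good S, t ≤ 1 → ‖u t - f x‖ ≤ C * t ^ γ := by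
  have hE := (integrable_weight_iff s hfg.2.1).1 hf
  obtain ⟨F, hF, hg⟩ := exists_lp hfg
  have hE2 : En (fun η : E n => ENNReal.ofReal ((1 + ‖(2 * Real.pi) • η‖ ^ 2) ^ s))
      (fun η => (𝓕 F : Lp ℂ 2 (volume : Measure (E n))) η) < ⊤ := by
    have h1 : ∫⁻ ξ, ENNReal.ofReal ((1 + nrm ξ ^ 2) ^ s) * ‖g ξ‖ₑ ^ 2 =
        ∫⁻ ξ, ENNReal.ofReal ((1 + nrm ξ ^ 2) ^ s) * ‖freq F ξ‖ₑ ^ 2 := by
      refine lintegral_congr_ae ?_
      filter_upwards [hg] with ξ hξ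
      rw [hξ]
    rw [h1, energy_freq] at hE
    have h2 : Vale.Agent.P076.H791.wt (fun ξ : Fin n → ℝ => ENNReal.ofReal ((1 + nrm ξ ^ 2) ^ s)) =
        fun η : E n => ENNReal.ofReal ((1 + ‖(2 * Real.pi) • η‖ ^ 2) ^ s) := by
      funext η
      change ENNReal.ofReal ((1 + nrm (WithLp.ofLp ((2 * Real.pi) • η)) ^ 2) ^ s) = _
      rw [nrm_eq]
      rfl
    rw [h2] at hE
    by_contra hcon
    rw [not_lt, top_le_iff] at hcon
    rw [hcon, ENNReal.mul_top ofReal_pos_scale] at hE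
    exact lt_irrefl _ hE
  filter_upwards [ae_toE (thin_evo hn hγ hγ1 hγs hα0 hα hβ F hE2), hF] with x hx hfx
  obtain ⟨S, hS1, hS2, hS3, u, hu1, hu2, hu3, C, hC⟩ := hx
  have hfx' : F (toE x) = f x := hfx.symm
  rw [hfx'] at hu2 hC
  refine ⟨S, hS1, hS2, hS3, u, hu1, hu2, fun t ht => ?_, C, hC⟩
  have h2 : Tendsto (fun b : ℝ => 4 * Real.pi ^ 2 * b) (𝓝[>] 0) (𝓝[>] 0) := by
    refine tendsto_nhdsWithin_iff.2 ⟨?_, ?_⟩
    · have : Tendsto (fun b : ℝ => 4 * Real.pi ^ 2 * b) (𝓝 0) (𝓝 (4 * Real.pi ^ 2 * 0)) :=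
        (continuous_const.mul continuous_id).tendsto 0
      rw [mul_zero] at this
      exact this.mono_left nhdsWithin_le_nhds
    · filter_upwards [self_mem_nhdsWithin] with b hb
      have hb' : (0:ℝ) < b := hb
      exact Set.mem_Ioi.2 (by positivity)
  refine ((hu3 t ht).comp h2).congr fun a => ?_
  rw [evolve_congr hg, evolve_freq, schrReg_eq_evo]
  rfl

end Vale.Agent.P076.R2.H64
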