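import Vale.Agent.P076.R2.H64.Thin3

/-!
# P076, thin sets of times: one exceptional set for all exponents, the data
-/

open MeasureTheory Complex FourierTransform Filter Topology Set
open scoped ENNReal NNReal

namespace Vale.Agent.P076.R2.H64

open Vale.Agent.P076 Vale.Agent.P076.H791

variable {n : ℕ} {G : E n → ℂ}

/-- the threshold of the level `k` -/
noncomputable def th (k : ℕ) : ℝ := (((k : ℝ) + 1) ^ 2)⁻¹

lemma th_pos (k : ℕ) : 0 < th k := by unfold th; positivity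

/-- the factor of Chebyshev's inequality -/
noncomputable def qt (k : ℕ) : ℝ≥0∞ := ENNReal.ofReal (((k : ℝ) + 1) ^ 4)

lemma qt_mul (k : ℕ) : qt k * ENNReal.ofReal (th k ^ 2) = 1 := by
  unfold qt th
  rw [← ENNReal.ofReal_mul (by positivity), ← ENNReal.ofReal_one]
  congr 1
  field_simp

lemma one_le_of_bad' {k : ℕ} {m : ℝ≥0∞} (h : ENNReal.ofReal (th k ^ 2) < m) : 1 ≤ qt k * m := by
  rw [← qt_mul k]
  exact mul_le_mul_right h.le _

lemma summable_th : Summable th := by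
  have h1 := (summable_nat_add_iff 1).2 (Real.summable_nat_pow_inv (p := 2).2 one_lt_two)
  refine h1.congr fun k => ?_
  unfold th
  push_cast
  rfl

lemma poly_le {ε : ℝ} (hε : 0 < ε) : ∃ C : ℝ, 0 ≤ C ∧ ∀ k : ℕ, ((k : ℝ) + 1) ^ 4 ≤ C * ((2 : ℝ) ^ k) ^ ε := by
  have hq : (0 : ℝ) < (2 : ℝ) ^ (-ε) := Real.rpow_pos_of_pos (by norm_num) _
  have hq1 : (2 : ℝ) ^ (-ε) < 1 := Real.rpow_lt_one_of_one_lt_of_neg (by norm_num) (by linarith)
  have h1 : Summable fun k : ℕ => ((k : ℝ)) ^ 4 * ((2 : ℝ) ^ (-ε)) ^ k :=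
    summable_pow_mul_geometric_of_norm_lt_one 4 (by rwa [Real.norm_of_nonneg hq.le])
  have h2 := (summable_nat_add_iff 1).2 h1
  refine ⟨(∑' k : ℕ, (((k + 1 : ℕ) : ℝ)) ^ 4 * ((2 : ℝ) ^ (-ε)) ^ (k + 1)) * ((2 : ℝ) ^ (-ε))⁻¹,
    mul_nonneg (tsum_nonneg fun k => by positivity) (by positivity), fun k => ?_⟩
  have h3 := h2.le_tsum k (fun j _ => by positivity)
  have h4 : ((2 : ℝ) ^ k) ^ ε = (((2 : ℝ) ^ (-ε)) ^ k)⁻¹ := by
    rw [← Real.rpow_natCast, ← Real.rpow_natCast, ← Real.rpow_mul (by norm_num),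
      ← Real.rpow_mul (by norm_num), ← Real.rpow_neg (by norm_num)]
    congr 1
    ring
  rw [h4, mul_assoc, ← mul_inv, ← div_eq_mul_inv, le_div_iff₀ (by positivity)]
  refine le_trans (le_of_eq ?_) h3
  push_cast
  ring

/-- **The exceptional intervals, for all exponents.** -/
theorem thin_data' (hn : 1 ≤ n) {s : ℝ} (hs : 0 < s)
    (hsum : ∀ α : ℝ, 0 < α → α < 1 → ∀ m : ℕ,
      ∑ l ∈ Finset.range m, ((l : ℝ) + 1) ^ (-α) ≤ (m : ℝ) ^ (1 - α) / (1 - α))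
    (hG : Measurable G) (hE : En (ws s) G < ⊤) :
    ∀ᵐ x : E n, ∃ S : Set (ℕ × ℕ), (∀ p ∈ S, 1 ≤ p.2) ∧
      (∀ α : ℝ, 0 < α → 1 - 2 * s < α → Summable (fun p : S => (p.1.2 : ℝ) ^ (-α))) ∧
      (∀ β : ℝ, 1 / 2 - s < β → Summable (fun p : S => ((4 : ℝ) ^ p.1.1) ^ (-β))) ∧ ∃ k0 : ℕ,
        (∀ k ≥ k0, ∀ t ∈ Il ((2 : ℝ) ^ k) 0, ∀ a : ℝ, 0 ≤ a →
          ‖evo (pc G (k + 1)) x t a‖ ≤ th k) ∧
        (∀ k l : ℕ, 1 ≤ l → (k, l) ∉ S → ∀ t ∈ Il ((2 : ℝ) ^ k) l, ∀ a : ℝ, 0 ≤ a →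
          ‖evo (pc G (k + 1)) x t a‖ ≤ th k) := by
  have h2 := l2_of_En hs.le hE
  obtain ⟨C, hC, hcore⟩ := core (specK hn) (specS n) (specA n)
  have hsh : ∀ k, Shell ((2 : ℝ) ^ k) (pc G (k + 1)) := shell_pc hG h2
  choose M hM1 hM2 hM3 hM4 using fun k : ℕ => hcore ((2 : ℝ) ^ k) (pc G (k + 1)) (by positivity) (hsh k)
  have hX : ∀ k : ℕ, (0 : ℝ) < 2 ^ k := fun k => by positivity
  have hA : ∀ α : ℝ, 0 < α → α < 1 → 1 - 2 * s < α →
      ∀ᵐ x : E n, ∑' k, qt k * ∑' l, cw α l * M k l x < ⊤ := by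
    intro α hα0 hα1 hα
    have hα' : 0 < 1 - α := by linarith
    obtain ⟨Cp, hCp0, hCp⟩ := poly_le (ε := 2 * s - (1 - α)) (by linarith)
    refine sum_fin (G := G) hs.le hE (fun k => (Measurable.tsum fun l => (hM1 k l).const_mul _).const_mul _)
      (C := Cp * (C * (1 / (1 - α) + 1))) (κ := 2 * s) (by positivity) le_rfl fun k => ?_
    have h3 := level_bound hα0 hα1 (hsum α hα0 hα1) hC k (hM1 k) (hM3 k) (hM4 k)
    have e1 : ∀ x : E n, WW x * (qt k * ∑' l, cw α l * M k l x) =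
        qt k * (WW x * ∑' l, cw α l * M k l x) := fun x => by ring
    simp_rw [e1]
    rw [lintegral_const_mul' _ _ (by unfold qt; exact ENNReal.ofReal_ne_top)]
    refine (mul_le_mul_right h3 _).trans ?_
    rw [← mul_assoc]
    refine mul_le_mul_left ?_ _
    unfold qt
    rw [← ENNReal.ofReal_mul (by positivity)]
    refine ENNReal.ofReal_le_ofReal ?_
    have e2 : ((2 : ℝ) ^ k) ^ (2 * s) = ((2 : ℝ) ^ k) ^ (2 * s - (1 - α)) * ((2 : ℝ) ^ k) ^ (1 - α) := by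
      rw [← Real.rpow_add (hX k)]
      congr 1
      ring
    rw [e2]
    calc ((k : ℝ) + 1) ^ 4 * (C * (1 / (1 - α) + 1) * ((2 : ℝ) ^ k) ^ (1 - α))
        ≤ (Cp * ((2 : ℝ) ^ k) ^ (2 * s - (1 - α))) * (C * (1 / (1 - α) + 1) * ((2 : ℝ) ^ k) ^ (1 - α)) :=
          mul_le_mul_of_nonneg_right (hCp k) (by positivity)
      _ = _ := by ring
  have hB : ∀ β : ℝ, 1 / 2 - s < β →
      ∀ᵐ x : E n, ∑' k, ENNReal.ofReal (((4 : ℝ) ^ k) ^ (-β)) * (qt k * ∑' l, M k l x) < ⊤ := by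
    intro β hβ
    obtain ⟨Cp, hCp0, hCp⟩ := poly_le (ε := 2 * s + 2 * β - 1) (by linarith)
    refine sum_fin (G := G) hs.le hE
      (fun k => ((Measurable.tsum fun l => hM1 k l).const_mul _).const_mul _)
      (C := Cp * C) (κ := 2 * s) (by positivity) le_rfl fun k => ?_
    have e1 : ∀ x : E n, WW x * (ENNReal.ofReal (((4 : ℝ) ^ k) ^ (-β)) * (qt k * ∑' l, M k l x)) =
        (ENNReal.ofReal (((4 : ℝ) ^ k) ^ (-β)) * qt k) * (WW x * ∑' l, M k l x) := fun x => by ring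
    simp_rw [e1]
    rw [lintegral_const_mul' _ _ (ENNReal.mul_ne_top ENNReal.ofReal_ne_top
      (by unfold qt; exact ENNReal.ofReal_ne_top))]
    refine (mul_le_mul_right (hM4 k) _).trans ?_
    rw [← mul_assoc]
    refine mul_le_mul_left ?_ _
    unfold qt
    rw [← ENNReal.ofReal_mul (by positivity), ← ENNReal.ofReal_mul (by positivity)]
    refine ENNReal.ofReal_le_ofReal ?_
    have e3 : ((4 : ℝ) ^ k) ^ (-β) = ((2 : ℝ) ^ k) ^ (-(2 * β)) := by
      have h5 : (4 : ℝ) ^ k = ((2 : ℝ) ^ k) ^ 2 := by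
        rw [← pow_mul, mul_comm, pow_mul]
        norm_num
      have h6 := Real.rpow_natCast_mul (hX k).le 2 (-β)
      rw [h5, ← h6]
      congr 1
      push_cast
      ring
    have e2 : ((2 : ℝ) ^ k) ^ (2 * s) =
        ((2 : ℝ) ^ k) ^ (-(2 * β)) * ((2 : ℝ) ^ k) ^ (2 * s + 2 * β - 1) * 2 ^ k := by
      rw [← Real.rpow_add (hX k)]
      nth_rewrite 3 [← Real.rpow_one ((2 : ℝ) ^ k)]
      rw [← Real.rpow_add (hX k)]
      congr 1
      ring
    rw [e2, e3]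
    calc ((2 : ℝ) ^ k) ^ (-(2 * β)) * ((k : ℝ) + 1) ^ 4 * (C * 2 ^ k)
        ≤ ((2 : ℝ) ^ k) ^ (-(2 * β)) * (Cp * ((2 : ℝ) ^ k) ^ (2 * s + 2 * β - 1)) * (C * 2 ^ k) := by
          refine mul_le_mul_of_nonneg_right (mul_le_mul_of_nonneg_left (hCp k) ?_) ?_ <;> positivity
      _ = _ := by ring
  have h0 : ∀ᵐ x : E n, ∑' k, qt k * M k 0 x < ⊤ := by
    obtain ⟨Cp, hCp0, hCp⟩ := poly_le (ε := 2 * s) (by linarith)
    refine sum_fin (G := G) hs.le hE (fun k => (hM1 k 0).const_mul _)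
      (C := Cp * C) (κ := 2 * s) (by positivity) le_rfl fun k => ?_
    calc ∫⁻ x, WW x * (qt k * M k 0 x) ≤ ∫⁻ x, qt k * M k 0 x :=
          lintegral_mono fun x => mul_le_of_le_one_left' (WW_le_one x)
      _ = qt k * ∫⁻ x, M k 0 x := lintegral_const_mul _ (hM1 k 0)
      _ ≤ qt k * (ENNReal.ofReal C * ∫⁻ η, ‖pc G (k + 1) η‖ₑ ^ 2) := mul_le_mul_right (hM3 k 0) _
      _ ≤ _ := by
          rw [← mul_assoc]
          refine mul_le_mul_left ?_ _
          unfold qt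
          rw [← ENNReal.ofReal_mul (by positivity)]
          refine ENNReal.ofReal_le_ofReal ?_
          calc ((k : ℝ) + 1) ^ 4 * C ≤ (Cp * ((2 : ℝ) ^ k) ^ (2 * s)) * C :=
                mul_le_mul_of_nonneg_right (hCp k) hC
            _ = _ := by ring
  -- countably many exponents
  set A0 : ℝ := max (1 - 2 * s) 0 with hA0
  have hA01 : A0 < 1 := max_lt (by linarith) one_pos
  have hA00 : 0 ≤ A0 := le_max_right _ _
  have hAs : 1 - 2 * s ≤ A0 := le_max_left _ _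
  set αj : ℕ → ℝ := fun j => A0 + (1 - A0) / ((j : ℝ) + 2) with hαj
  have hαj0 : ∀ j, A0 < αj j := fun j => by
    have : 0 < (1 - A0) / ((j : ℝ) + 2) := by
      have h3 : 0 < 1 - A0 := by linarith
      positivity
    simp only [hαj]
    linarith
  have hαj1 : ∀ j, αj j < 1 := fun j => by
    have h3 : 0 < 1 - A0 := by linarith
    have h4 : (1 - A0) / ((j : ℝ) + 2) < 1 - A0 :=
      div_lt_self h3 (by have : (0 : ℝ) ≤ j := Nat.cast_nonneg j; linarith)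
    simp only [hαj]
    linarith
  set βj : ℕ → ℝ := fun j => 1 / 2 - s + 1 / ((j : ℝ) + 1) with hβj
  have hβj0 : ∀ j, 1 / 2 - s < βj j := fun j => by
    have : 0 < 1 / ((j : ℝ) + 1) := by positivity
    simp only [hβj]
    linarith
  have hA' : ∀ᵐ x : E n, ∀ j, ∑' k, qt k * ∑' l, cw (αj j) l * M k l x < ⊤ :=
    ae_all_iff.2 fun j => hA _ (hA00.trans_lt (hαj0 j)) (hαj1 j) (hAs.trans_lt (hαj0 j))
  have hB' : ∀ᵐ x : E n, ∀ j, ∑' k, ENNReal.ofReal (((4 : ℝ) ^ k) ^ (-(βj j))) *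
      (qt k * ∑' l, M k l x) < ⊤ := ae_all_iff.2 fun j => hB _ (hβj0 j)
  filter_upwards [hA', hB', h0] with x hxA hxB hx0
  set S : Set (ℕ × ℕ) := {p | 1 ≤ p.2 ∧ ENNReal.ofReal (th p.1 ^ 2) < M p.1 p.2 x} with hS
  obtain ⟨k1, hk1⟩ := ev_small hx0
  have hSA : ∀ j, Summable (fun p : S => (p.1.2 : ℝ) ^ (-(αj j))) := by
    intro j
    have h3 : ∑' p : S, ENNReal.ofReal ((p.1.2 : ℝ) ^ (-(αj j))) ≤
        ∑' k, qt k * ∑' l, cw (αj j) l * M k l x := by
      calc ∑' p : S, ENNReal.ofReal ((p.1.2 : ℝ) ^ (-(αj j)))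
          ≤ ∑' p : S, qt p.1.1 * (cw (αj j) p.1.2 * M p.1.1 p.1.2 x) := by
            refine ENNReal.tsum_le_tsum fun p => ?_
            have h4 := one_le_of_bad' p.2.2
            have h5 : cw (αj j) p.1.2 = ENNReal.ofReal ((p.1.2 : ℝ) ^ (-(αj j))) :=
              if_neg (by have := p.2.1; omega)
            rw [h5]
            calc ENNReal.ofReal ((p.1.2 : ℝ) ^ (-(αj j)))
                = ENNReal.ofReal ((p.1.2 : ℝ) ^ (-(αj j))) * 1 := by rw [mul_one]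
              _ ≤ ENNReal.ofReal ((p.1.2 : ℝ) ^ (-(αj j))) * (qt p.1.1 * M p.1.1 p.1.2 x) :=
                  mul_le_mul_right h4 _
              _ = _ := by ring
        _ ≤ ∑' p : ℕ × ℕ, qt p.1 * (cw (αj j) p.2 * M p.1 p.2 x) :=
            ENNReal.tsum_comp_le_tsum_of_injective Subtype.val_injective
              fun p : ℕ × ℕ => qt p.1 * (cw (αj j) p.2 * M p.1 p.2 x)
        _ = ∑' k, qt k * ∑' l, cw (αj j) l * M k l x := by
            rw [ENNReal.tsum_prod']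
            simp_rw [ENNReal.tsum_mul_left]
    have h4 := ENNReal.summable_toReal (h3.trans_lt (hxA j)).ne
    refine h4.congr fun p => ?_
    rw [ENNReal.toReal_ofReal (by positivity)]
  have hSB : ∀ j, Summable (fun p : S => ((4 : ℝ) ^ p.1.1) ^ (-(βj j))) := by
    intro j
    have h3 : ∑' p : S, ENNReal.ofReal (((4 : ℝ) ^ p.1.1) ^ (-(βj j))) ≤
        ∑' k, ENNReal.ofReal (((4 : ℝ) ^ k) ^ (-(βj j))) * (qt k * ∑' l, M k l x) := by
      calc ∑' p : S, ENNReal.ofReal (((4 : ℝ) ^ p.1.1) ^ (-(βj j)))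
          ≤ ∑' p : S, ENNReal.ofReal (((4 : ℝ) ^ p.1.1) ^ (-(βj j))) *
              (qt p.1.1 * M p.1.1 p.1.2 x) := by
            refine ENNReal.tsum_le_tsum fun p => ?_
            have h4 := one_le_of_bad' p.2.2
            calc _ = ENNReal.ofReal (((4 : ℝ) ^ p.1.1) ^ (-(βj j))) * 1 := by rw [mul_one]
              _ ≤ _ := mul_le_mul_right h4 _
        _ ≤ ∑' p : ℕ × ℕ, ENNReal.ofReal (((4 : ℝ) ^ p.1) ^ (-(βj j))) *
              (qt p.1 * M p.1 p.2 x) :=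
            ENNReal.tsum_comp_le_tsum_of_injective Subtype.val_injective
              fun p : ℕ × ℕ => ENNReal.ofReal (((4 : ℝ) ^ p.1) ^ (-(βj j))) *
                (qt p.1 * M p.1 p.2 x)
        _ = _ := by
            rw [ENNReal.tsum_prod']
            simp_rw [ENNReal.tsum_mul_left]
    have h4 := ENNReal.summable_toReal (h3.trans_lt (hxB j)).ne
    refine h4.congr fun p => ?_
    rw [ENNReal.toReal_ofReal (by positivity)]
  refine ⟨S, fun p hp => hp.1, ?_, ?_, k1, ?_, ?_⟩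
  · intro α hα0 hα
    have hα' : A0 < α := max_lt hα hα0
    obtain ⟨j, hj⟩ := exists_nat_gt ((1 - A0) / (α - A0))
    have h3 : αj j ≤ α := by
      have h4 : 0 < α - A0 := by linarith
      have h5 : (1 - A0) / ((j : ℝ) + 2) ≤ α - A0 := by
        rw [div_lt_iff₀ h4] at hj
        have h6 : (0 : ℝ) ≤ j := Nat.cast_nonneg j
        rw [div_le_iff₀ (by linarith)]
        nlinarith
      simp only [hαj]
      linarith
    refine Summable.of_nonneg_of_le (fun p => by positivity) (fun p => ?_) (hSA j)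
    have h5 : (1 : ℝ) ≤ p.1.2 := by exact_mod_cast p.2.1
    exact Real.rpow_le_rpow_of_exponent_le h5 (by linarith)
  · intro β hβ
    obtain ⟨j, hj⟩ := exists_nat_one_div_lt (sub_pos.2 hβ)
    have h3 : βj j ≤ β := by
      simp only [hβj]
      linarith
    refine Summable.of_nonneg_of_le (fun p => by positivity) (fun p => ?_) (hSB j)
    have h5 : (1 : ℝ) ≤ (4 : ℝ) ^ p.1.1 := one_le_pow₀ (by norm_num)
    exact Real.rpow_le_rpow_of_exponent_le h5 (by linarith)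
  · intro k hk t ht a ha
    refine norm_le_of_enorm (th_pos k).le ((hM2 k 0 x t ht a ha).trans ?_)
    by_contra hcon
    rw [not_le] at hcon
    exact absurd (one_le_of_bad' hcon) (not_le.2 (hk1 k hk))
  · intro k l hl hkl t ht a ha
    refine norm_le_of_enorm (th_pos k).le ((hM2 k l x t ht a ha).trans ?_)
    by_contra hcon
    rw [not_le] at hcon
    exact hkl ⟨hl, hcon⟩

end Vale.Agent.P076.R2.H64
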