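import Vale.Agent.P076.R2.H64.Thin5
import Vale.Agent.P076.R2.H64.Thin6

/-!
# P076, thin sets of times: one exceptional set for all exponents
-/

open MeasureTheory Complex FourierTransform Filter Topology Set
open scoped ENNReal NNReal

namespace Vale.Agent.P076.R2.H64

open Vale.Agent.P076 Vale.Agent.P076.H791

variable {n : ℕ}

lemma summable_th' : Summable fun k : ℕ => th (k - 1) := by
  rw [← summable_nat_add_iff 1]
  exact summable_th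

theorem thin_evo' (hn : 1 ≤ n) {s : ℝ} (hs : 0 < s) (F : Lp ℂ 2 (volume : Measure (E n)))
    (hE : En (fun η : E n => ENNReal.ofReal ((1 + ‖(2 * Real.pi) • η‖ ^ 2) ^ s))
      (fun η => (𝓕 F : Lp ℂ 2 (volume : Measure (E n))) η) < ⊤) :
    ∀ᵐ x : E n, ∃ S : Set (ℕ × ℕ), (∀ p ∈ S, 1 ≤ p.2) ∧
      (∀ α : ℝ, 0 < α → 1 - 2 * s < α → Summable (fun p : S => (p.1.2 : ℝ) ^ (-α))) ∧
      (∀ β : ℝ, 1 / 2 - s < β → Summable (fun p : S => ((4 : ℝ) ^ p.1.1) ^ (-β))) ∧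
      ∃ u : ℝ → ℂ, ContinuousOn u (good S) ∧ u 0 = F x ∧
        (∀ t ∈ good S, Tendsto (fun a => evo (fun η => (𝓕 F : Lp ℂ 2 (volume : Measure (E n))) η) x (2 * Real.pi * t) a)
          (𝓝[>] 0) (𝓝 (u t))) := by
  set G : E n → ℂ := fun η => (𝓕 F : Lp ℂ 2 (volume : Measure (E n))) η with hG
  have hGm : Measurable G := (Lp.stronglyMeasurable _).measurable
  have hE' : En (ws s) G < ⊤ := hE
  obtain ⟨δ, hδ⟩ := exists_pieces hs hGm hE'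
  have hT := thin_data' hn hs (G := G)
    (fun α h1 h2 m => Vale.Agent.P076.R2.H922.sum_rpow h1 h2 m) hGm hE'
  filter_upwards [hT, ff_eq hs F hE'] with x hx hxF
  obtain ⟨S, hS1, hS2, hS3, k0, hk1, hk3⟩ := hx
  set Z : Set ℝ := (fun t => 2 * Real.pi * t) '' good S with hZ
  have hbd : ∀ k ≥ k0, ∀ σ ∈ Z, ∀ a : ℝ, 0 ≤ a → ‖evo (pc G (k + 1)) x σ a‖ ≤ th k := by
    rintro k hk σ ⟨t, ht, rfl⟩ a ha
    have ht0 : 0 ≤ t := ht.1
    have h5 : 0 ≤ t * 4 ^ k := by positivity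
    have h6 : (⌊t * 4 ^ k⌋₊ : ℝ) ≤ t * 4 ^ k := Nat.floor_le h5
    have h7 : t * 4 ^ k ≤ (⌊t * 4 ^ k⌋₊ : ℝ) + 1 := (Nat.lt_floor_add_one _).le
    have h8 := mem_Il_of h6 h7
    rcases Nat.eq_zero_or_pos ⌊t * 4 ^ k⌋₊ with h9 | h9
    · rw [h9] at h8
      exact hk1 k hk _ h8 a ha
    · refine hk3 k _ h9 (fun hS => ht.2 ?_) _ h8 a ha
      exact mem_biUnion hS (mem_cell_of h6 h7)
  have hbe : ∀ k ≥ k0 + 1, ∀ σ ∈ Z, ∀ a : ℝ, 0 ≤ a → ‖evo (pc G k) x σ a‖ ≤ th (k - 1) := by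
    intro k hk σ hσ a ha
    obtain ⟨j, rfl⟩ : ∃ j, k = j + 1 := ⟨k - 1, by omega⟩
    exact hbd j (by omega) σ hσ a ha
  obtain ⟨hd1, hd2⟩ := det_end hδ (Eventually.of_forall fun η => hasSum_pc G η) x summable_th' hbe
  refine ⟨S, hS1, hS2, hS3, fun t => ∑' k, evo (pc G k) x (2 * Real.pi * t) 0, ?_, ?_, ?_⟩
  · have hc : Continuous fun t : ℝ => 2 * Real.pi * t := continuous_const.mul continuous_id
    exact hd1.comp hc.continuousOn fun t ht => ⟨t, ht, rfl⟩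
  · simp only [mul_zero]
    exact hxF.tsum_eq
  · intro t ht
    exact hd2 _ ⟨t, ht, rfl⟩

theorem thin_final' (hn : 1 ≤ n) {s : ℝ} (hs : 0 < s) {f g : (Fin n → ℝ) → ℂ}
    (hfg : IsFourierPair f g) (hf : Integrable fun ξ => (1 + nrm ξ ^ 2) ^ s * ‖g ξ‖ ^ 2) :
    ∀ᵐ x, ∃ S : Set (ℕ × ℕ), (∀ p ∈ S, 1 ≤ p.2) ∧
      (∀ α : ℝ, 0 < α → 1 - 2 * s < α → Summable (fun p : S => (p.1.2 : ℝ) ^ (-α))) ∧
      (∀ β : ℝ, 1 / 2 - s < β → Summable (fun p : S => ((4 : ℝ) ^ p.1.1) ^ (-β))) ∧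
      ∃ u : ℝ → ℂ, ContinuousOn u (good S) ∧ u 0 = f x ∧
        (∀ t ∈ good S, Tendsto (fun a => evolve g t a x) (𝓝[>] 0) (𝓝 (u t))) := by
  have hE := (integrable_weight_iff s hfg.2.1).1 hf
  obtain ⟨F, hF, hg⟩ := exists_lp hfg
  have hE2 : En (fun η : E n => ENNReal.ofReal ((1 + ‖(2 * Real.pi) • η‖ ^ 2) ^ s))
      (fun η => (𝓕 F : Lp ℂ 2 (volume : Measure (E n))) η) < ⊤ := by
    have h1 : ∫⁻ ξ, ENNReal.ofReal ((1 + nrm ξ ^ 2) ^ s) * ‖g ξ‖ₑ ^ 2 =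
        ∫⁻ ξ, ENNReal.ofReal ((1 + nrm ξ ^ 2) ^ s) * ‖freq F ξ‖ₑ ^ 2 := by
      refine lintegral_congr_ae ?_
      filter_upwards [hg] with ξ hξ
      rw [hξ]
    rw [h1, energy_freq] at hE
    have h2 : Vale.Agent.P076.H791.wt (fun ξ : Fin n → ℝ => ENNReal.ofReal ((1 + nrm ξ ^ 2) ^ s)) =
        fun η : E n => ENNReal.ofReal ((1 + ‖(2 * Real.pi) • η‖ ^ 2) ^ s) := by
      funext η
      change ENNReal.ofReal ((1 + nrm (WithLp.ofLp ((2 * Real.pi) • η)) ^ 2) ^ s) = _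
      rw [nrm_eq]
      rfl
    rw [h2] at hE
    by_contra hcon
    rw [not_lt, top_le_iff] at hcon
    rw [hcon, ENNReal.mul_top ofReal_pos_scale] at hE
    exact lt_irrefl _ hE
  filter_upwards [ae_toE (thin_evo' hn hs F hE2), hF] with x hx hfx
  obtain ⟨S, hS1, hS2, hS3, u, hu1, hu2, hu3⟩ := hx
  have hfx' : F (toE x) = f x := hfx.symm
  rw [hfx'] at hu2
  refine ⟨S, hS1, hS2, hS3, u, hu1, hu2, fun t ht => ?_⟩
  have h2 : Tendsto (fun b : ℝ => 4 * Real.pi ^ 2 * b) (𝓝[>] 0) (𝓝[>] 0) := by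
    refine tendsto_nhdsWithin_iff.2 ⟨?_, ?_⟩
    · have : Tendsto (fun b : ℝ => 4 * Real.pi ^ 2 * b) (𝓝 0) (𝓝 (4 * Real.pi ^ 2 * 0)) :=
        (continuous_const.mul continuous_id).tendsto 0
      rw [mul_zero] at this
      exact this.mono_left nhdsWithin_le_nhds
    · filter_upwards [self_mem_nhdsWithin] with b hb
      have hb' : (0:ℝ) < b := hb
      exact Set.mem_Ioi.2 (by positivity)
  refine ((hu3 t ht).comp h2).congr fun a => ?_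
  rw [evolve_congr hg, evolve_freq, schrReg_eq_evo]
  rfl

end Vale.Agent.P076.R2.H64
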